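import Mathlib
import Crest.Prelude.Def_WL

/-!
Back-and-forth characterisation of the joint and separate Weisfeiler-Leman equivalences.
-/

namespace Crest.Agent.WLD

open Crest.WLRefine Finset

set_option autoImplicit false

section General

theorem exists_equiv_of_map_univ_eq {α β γ : Type*} [Fintype α] [Fintype β] (f : α → γ)
    (g : β → γ) (h : (univ : Finset α).val.map f = (univ : Finset β).val.map g) :
    ∃ e : α ≃ β, ∀ a, f a = g (e a) := by
  classical
  have hc : ∀ c, Nonempty ({a // f a = c} ≃ {b // g b = c}) := by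
    intro c
    have h1 := congrArg (Multiset.count c) h
    rw [Multiset.count_map, Multiset.count_map] at h1
    have e1 : Fintype.card {a // f a = c} = Fintype.card {b // g b = c} := by
      rw [Fintype.card_subtype, Fintype.card_subtype]
      have h2 : (univ.filter fun a => f a = c).card
          = (Multiset.filter (fun a => c = f a) (univ : Finset α).val).card := by
        have : (fun a => c = f a) = (fun a => f a = c) := by
          funext a; exact propext eq_comm
        simp only [this]; rfl
      have h3 : (univ.filter fun b => g b = c).card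
          = (Multiset.filter (fun b => c = g b) (univ : Finset β).val).card := by
        have : (fun b => c = g b) = (fun b => g b = c) := by
          funext a; exact propext eq_comm
        simp only [this]; rfl
      rw [h2, h3, h1]
    exact ⟨Fintype.equivOfCardEq e1⟩
  choose e he using fun c => (hc c : Nonempty _) |>.elim (fun x => (⟨x, trivial⟩ : ∃ _ : _, True))
  refine ⟨Equiv.ofFiberEquiv e, fun a => ?_⟩
  exact (Equiv.ofFiberEquiv_map e a).symm

theorem map_univ_eq_of_equiv {α β γ : Type*} [Fintype α] [Fintype β] (f : α → γ)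
    (g : β → γ) (e : α ≃ β) (h : ∀ a, f a = g (e a)) :
    (univ : Finset α).val.map f = (univ : Finset β).val.map g := by
  have h1 : f = g ∘ e := funext h
  rw [h1, ← Multiset.map_map, Multiset.map_univ_val_equiv]

/-- Pigeonhole over rounds. -/
theorem exists_forall_of_antitone {E : Type*} [Finite E] (P : ℕ → E → Prop)
    (hP : ∀ s e, P (s + 1) e → P s e) (h : ∀ s, ∃ e, P s e) : ∃ e, ∀ s, P s e := by
  classical
  have := Fintype.ofFinite E
  by_contra hcon
  push Not at hcon
  choose b hb using hcon
  have hanti : ∀ s t e, s ≤ t → P t e → P s e := by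
    intro s t e hst
    induction t, hst using Nat.le_induction with
    | base => exact id
    | succ t _ ih => exact fun h => ih (hP t e h)
  obtain ⟨e, he⟩ := h (univ.sup b)
  exact hb e (hanti _ _ e (Finset.le_sup (mem_univ e)) he)

end General

variable {n m : ℕ}

/-- Stable joint colours agree. -/
def JStab (k : ℕ) (G : Fin n → Fin n → Bool) (H : Fin m → Fin m → Bool)
    (v : Fin k → Fin n) (w : Fin k → Fin m) : Prop :=
  ∀ s, jcolor G k s v = jcolor H k s w

/-- Stable separate colours agree. -/
def SStab (k : ℕ) (G : Fin n → Fin n → Bool) (H : Fin m → Fin m → Bool)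
    (v : Fin k → Fin n) (w : Fin k → Fin m) : Prop :=
  ∀ s, scolor G k s v = scolor H k s w

variable {k : ℕ} {G : Fin n → Fin n → Bool} {H : Fin m → Fin m → Bool}

theorem jcolor_succ_iff (s : ℕ) (v : Fin k → Fin n) (w : Fin k → Fin m) :
    jcolor G k (s + 1) v = jcolor H k (s + 1) w ↔
      jcolor G k s v = jcolor H k s w ∧ ∃ f : Fin n ≃ Fin m, ∀ z i,
        jcolor G k s (Function.update v i z) = jcolor H k s (Function.update w i (f z)) := by
  constructor
  · intro h
    have h1 := congrArg Prod.fst h
    have h2 := congrArg Prod.snd h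
    refine ⟨h1, ?_⟩
    obtain ⟨f, hf⟩ := exists_equiv_of_map_univ_eq
      (fun z => fun i => jcolor G k s (Function.update v i z))
      (fun z => fun i => jcolor H k s (Function.update w i z)) h2
    exact ⟨f, fun z i => congrFun (hf z) i⟩
  · rintro ⟨h1, f, hf⟩
    refine Prod.ext h1 ?_
    exact map_univ_eq_of_equiv _ _ f (fun z => funext fun i => hf z i)

theorem scolor_succ_iff (s : ℕ) (v : Fin k → Fin n) (w : Fin k → Fin m) :
    scolor G k (s + 1) v = scolor H k (s + 1) w ↔
      scolor G k s v = scolor H k s w ∧ ∀ i, ∃ f : Fin n ≃ Fin m, ∀ z,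
        scolor G k s (Function.update v i z) = scolor H k s (Function.update w i (f z)) := by
  constructor
  · intro h
    have h1 := congrArg Prod.fst h
    have h2 := congrArg Prod.snd h
    refine ⟨h1, fun i => ?_⟩
    obtain ⟨f, hf⟩ := exists_equiv_of_map_univ_eq
      (fun z => scolor G k s (Function.update v i z))
      (fun z => scolor H k s (Function.update w i z)) (congrFun h2 i)
    exact ⟨f, hf⟩
  · rintro ⟨h1, hf⟩
    refine Prod.ext h1 (funext fun i => ?_)
    obtain ⟨f, hf⟩ := hf i
    exact map_univ_eq_of_equiv _ _ f hf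

theorem jstab_iff (v : Fin k → Fin n) (w : Fin k → Fin m) :
    JStab k G H v w ↔ atomicType G v = atomicType H w ∧
      ∃ f : Fin n ≃ Fin m, ∀ z i,
        JStab k G H (Function.update v i z) (Function.update w i (f z)) := by
  constructor
  · intro h
    refine ⟨h 0, ?_⟩
    obtain ⟨f, hf⟩ := exists_forall_of_antitone (E := Fin n ≃ Fin m)
      (fun s f => ∀ z i, jcolor G k s (Function.update v i z)
        = jcolor H k s (Function.update w i (f z)))
      (fun s e he z i => ((jcolor_succ_iff s _ _).1 (he z i)).1)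
      (fun s => ((jcolor_succ_iff s v w).1 (h (s + 1))).2)
    exact ⟨f, fun z i s => hf s z i⟩
  · rintro ⟨h0, f, hf⟩ s
    induction s with
    | zero => exact h0
    | succ s ih => exact (jcolor_succ_iff s v w).2 ⟨ih, f, fun z i => hf z i s⟩

theorem sstab_iff (v : Fin k → Fin n) (w : Fin k → Fin m) :
    SStab k G H v w ↔ atomicType G v = atomicType H w ∧
      ∀ i, ∃ f : Fin n ≃ Fin m, ∀ z,
        SStab k G H (Function.update v i z) (Function.update w i (f z)) := by
  constructor
  · intro h
    refine ⟨h 0, fun i => ?_⟩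
    obtain ⟨f, hf⟩ := exists_forall_of_antitone (E := Fin n ≃ Fin m)
      (fun s f => ∀ z, scolor G k s (Function.update v i z)
        = scolor H k s (Function.update w i (f z)))
      (fun s e he z => ((scolor_succ_iff s _ _).1 (he z)).1)
      (fun s => ((scolor_succ_iff s v w).1 (h (s + 1))).2 i)
    exact ⟨f, fun z s => hf s z⟩
  · rintro ⟨h0, hf⟩ s
    induction s with
    | zero => exact h0
    | succ s ih =>
      refine (scolor_succ_iff s v w).2 ⟨ih, fun i => ?_⟩
      obtain ⟨f, hf⟩ := hf i
      exact ⟨f, fun z => hf z s⟩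

/-- A relation closed under the joint moves is contained in stable equality. -/
theorem JStab.of_rel (R : (Fin k → Fin n) → (Fin k → Fin m) → Prop)
    (h0 : ∀ v w, R v w → atomicType G v = atomicType H w)
    (h1 : ∀ v w, R v w → ∃ f : Fin n ≃ Fin m, ∀ z i,
      R (Function.update v i z) (Function.update w i (f z)))
    {v : Fin k → Fin n} {w : Fin k → Fin m} (hR : R v w) : JStab k G H v w := by
  intro s
  induction s generalizing v w with
  | zero => exact h0 v w hR
  | succ s ih =>
    obtain ⟨f, hf⟩ := h1 v w hR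
    exact (jcolor_succ_iff s v w).2 ⟨ih hR, f, fun z i => ih (hf z i)⟩

/-- A relation closed under the separate moves is contained in stable equality. -/
theorem SStab.of_rel (R : (Fin k → Fin n) → (Fin k → Fin m) → Prop)
    (h0 : ∀ v w, R v w → atomicType G v = atomicType H w)
    (h1 : ∀ v w, R v w → ∀ i, ∃ f : Fin n ≃ Fin m, ∀ z,
      R (Function.update v i z) (Function.update w i (f z)))
    {v : Fin k → Fin n} {w : Fin k → Fin m} (hR : R v w) : SStab k G H v w := by
  intro s
  induction s generalizing v w with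
  | zero => exact h0 v w hR
  | succ s ih =>
    refine (scolor_succ_iff s v w).2 ⟨ih hR, fun i => ?_⟩
    obtain ⟨f, hf⟩ := h1 v w hR i
    exact ⟨f, fun z => ih (hf z)⟩

/-- From one related pair and bijections at every coordinate, a bijection of all tuples.
`T j` = first `j` coordinates replaced. -/
theorem exists_tuple_equiv (R : (Fin k → Fin n) → (Fin k → Fin m) → Prop)
    (h1 : ∀ v w, R v w → ∀ i, ∃ f : Fin n ≃ Fin m, ∀ z,
      R (Function.update v i z) (Function.update w i (f z)))
    {v₀ : Fin k → Fin n} {w₀ : Fin k → Fin m} (hR : R v₀ w₀) :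
    ∃ F : (Fin k → Fin n) ≃ (Fin k → Fin m), ∀ v, R v (F v) := by
  classical
  have hnm : n = m ∨ k = 0 := by
    rcases Nat.eq_zero_or_pos k with h | h
    · exact Or.inr h
    · obtain ⟨f, -⟩ := h1 v₀ w₀ hR ⟨0, h⟩
      left
      simpa using Fintype.card_congr f
  rcases hnm with hnm | hk
  swap
  · subst hk
    refine ⟨Equiv.ofBijective (fun _ => w₀) ⟨fun a b _ => Subsingleton.elim _ _,
      fun b => ⟨v₀, Subsingleton.elim _ _⟩⟩, fun v => ?_⟩
    have : v = v₀ := Subsingleton.elim _ _
    rw [this]; exact hR
  subst hnm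
  choose f hf using fun (p : {p : (Fin k → Fin n) × (Fin k → Fin n) // R p.1 p.2}) (i : Fin k) =>
    h1 p.1.1 p.1.2 p.2 i
  -- the state after replacing the coordinates `< j` of `v₀` by those of `v`
  let st : (Fin k → Fin n) → ℕ → {p : (Fin k → Fin n) × (Fin k → Fin n) // R p.1 p.2} :=
    fun v j => Nat.rec ⟨(v₀, w₀), hR⟩ (fun j p =>
      if hj : j < k then
        ⟨(Function.update p.1.1 ⟨j, hj⟩ (v ⟨j, hj⟩),
          Function.update p.1.2 ⟨j, hj⟩ (f p ⟨j, hj⟩ (v ⟨j, hj⟩))), hf p ⟨j, hj⟩ _⟩
      else p) j
  have st0 : ∀ v, st v 0 = ⟨(v₀, w₀), hR⟩ := fun v => rfl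
  have stS : ∀ v j (hj : j < k), st v (j + 1) =
      ⟨(Function.update (st v j).1.1 ⟨j, hj⟩ (v ⟨j, hj⟩),
        Function.update (st v j).1.2 ⟨j, hj⟩ (f (st v j) ⟨j, hj⟩ (v ⟨j, hj⟩))),
        hf (st v j) ⟨j, hj⟩ _⟩ := by
    intro v j hj
    change (if hj : j < k then _ else _) = _
    rw [dif_pos hj]
  have hfst : ∀ v j, j ≤ k → (st v j).1.1 = fun i => if i.val < j then v i else v₀ i := by
    intro v j
    induction j with
    | zero => intro _; rw [st0]; funext i; simp
    | succ j ih =>
      intro hj
      rw [stS v j (by omega)]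
      funext i
      simp only
      by_cases hi : i = ⟨j, by omega⟩
      · subst hi; simp
      · rw [Function.update_of_ne hi, ih (by omega)]
        have : i.val ≠ j := fun h => hi (Fin.ext h)
        by_cases h2 : i.val < j
        · simp [h2, Nat.lt_succ_of_lt h2]
        · have : ¬ i.val < j + 1 := by omega
          simp [h2, this]
  have hsnd : ∀ v j i (_ : j ≤ k), i.val < j → ∀ j', j ≤ j' → j' ≤ k →
      (st v j').1.2 i = (st v j).1.2 i := by
    intro v j i hj hij j' hjj'
    induction j', hjj' using Nat.le_induction with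
    | base => intro _; rfl
    | succ j' hj' ih =>
      intro h
      rw [stS v j' (by omega)]
      simp only
      rw [Function.update_of_ne, ih (by omega)]
      intro h2
      have := congrArg Fin.val h2
      simp at this; omega
  -- the final map
  let F : (Fin k → Fin n) → (Fin k → Fin n) := fun v => (st v k).1.2
  have hFR : ∀ v, R v (F v) := by
    intro v
    have h := (st v k).2
    have h2 : (st v k).1.1 = v := by
      rw [hfst v k le_rfl]; funext i; simp
    rw [h2] at h
    exact h
  have hinj : Function.Injective F := by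
    intro v v' hvv
    -- prove agreement by induction
    have key : ∀ j, j ≤ k → st v j = st v' j ∧ ∀ i : Fin k, i.val < j → v i = v' i := by
      intro j
      induction j with
      | zero => intro _; exact ⟨rfl, fun i hi => absurd hi (Nat.not_lt_zero _)⟩
      | succ j ih =>
        intro hj
        obtain ⟨h1', h2'⟩ := ih (by omega)
        have hjk : j < k := by omega
        have hv : v ⟨j, hjk⟩ = v' ⟨j, hjk⟩ := by
          have a1 : F v ⟨j, hjk⟩ = f (st v j) ⟨j, hjk⟩ (v ⟨j, hjk⟩) := by
            change (st v k).1.2 ⟨j, hjk⟩ = _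
            rw [hsnd v (j + 1) ⟨j, hjk⟩ hj (Nat.lt_succ_self j) k hj le_rfl, stS v j hjk]
            simp
          have a2 : F v' ⟨j, hjk⟩ = f (st v' j) ⟨j, hjk⟩ (v' ⟨j, hjk⟩) := by
            change (st v' k).1.2 ⟨j, hjk⟩ = _
            rw [hsnd v' (j + 1) ⟨j, hjk⟩ hj (Nat.lt_succ_self j) k hj le_rfl, stS v' j hjk]
            simp
          rw [hvv] at a1
          rw [a1, h1'] at a2
          exact (f (st v' j) ⟨j, hjk⟩).injective a2
        refine ⟨?_, ?_⟩
        · rw [stS v j hjk, stS v' j hjk]
          apply Subtype.ext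
          simp only [h1', hv]
        · intro i hi
          rcases Nat.lt_succ_iff_lt_or_eq.1 hi with h | h
          · exact h2' i h
          · have : i = ⟨j, hjk⟩ := Fin.ext h
            rw [this]; exact hv
    funext i
    exact (key k le_rfl).2 i i.2
  exact ⟨Equiv.ofBijective F (Finite.injective_iff_bijective.1 hinj), hFR⟩

theorem JEquiv.of_stab {v₀ : Fin k → Fin n} {w₀ : Fin k → Fin m} (hR : JStab k G H v₀ w₀) :
    JEquiv k G H := by
  obtain ⟨F, hF⟩ := exists_tuple_equiv (JStab k G H)
    (fun v w h i => by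
      obtain ⟨-, f, hf⟩ := (jstab_iff v w).1 h
      exact ⟨f, fun z => hf z i⟩) hR
  exact fun s => map_univ_eq_of_equiv _ _ F (fun v => hF v s)

theorem SEquiv.of_stab {v₀ : Fin k → Fin n} {w₀ : Fin k → Fin m} (hR : SStab k G H v₀ w₀) :
    SEquiv k G H := by
  obtain ⟨F, hF⟩ := exists_tuple_equiv (SStab k G H)
    (fun v w h i => ((sstab_iff v w).1 h).2 i) hR
  exact fun s => map_univ_eq_of_equiv _ _ F (fun v => hF v s)

/-- Duplicator criterion, joint convention: ONE related pair is enough. -/
theorem JEquiv.of_rel (R : (Fin k → Fin n) → (Fin k → Fin m) → Prop)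
    (h0 : ∀ v w, R v w → atomicType G v = atomicType H w)
    (h1 : ∀ v w, R v w → ∃ f : Fin n ≃ Fin m, ∀ z i,
      R (Function.update v i z) (Function.update w i (f z)))
    {v₀ : Fin k → Fin n} {w₀ : Fin k → Fin m} (hR : R v₀ w₀) : JEquiv k G H :=
  JEquiv.of_stab (JStab.of_rel R h0 h1 hR)

/-- Duplicator criterion, separate convention. -/
theorem SEquiv.of_rel (R : (Fin k → Fin n) → (Fin k → Fin m) → Prop)
    (h0 : ∀ v w, R v w → atomicType G v = atomicType H w)
    (h1 : ∀ v w, R v w → ∀ i, ∃ f : Fin n ≃ Fin m, ∀ z,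
      R (Function.update v i z) (Function.update w i (f z)))
    {v₀ : Fin k → Fin n} {w₀ : Fin k → Fin m} (hR : R v₀ w₀) : SEquiv k G H :=
  SEquiv.of_stab (SStab.of_rel R h0 h1 hR)

/-- Spoiler side, joint convention: a bijection of all tuples preserving stable colours. -/
theorem JEquiv.exists_bij (h : JEquiv k G H) :
    ∃ F : (Fin k → Fin n) ≃ (Fin k → Fin m), ∀ v, JStab k G H v (F v) := by
  obtain ⟨F, hF⟩ := exists_forall_of_antitone (E := (Fin k → Fin n) ≃ (Fin k → Fin m))
    (fun s F => ∀ v, jcolor G k s v = jcolor H k s (F v))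
    (fun s e he v => ((jcolor_succ_iff s _ _).1 (he v)).1)
    (fun s => exists_equiv_of_map_univ_eq _ _ (h s))
  exact ⟨F, fun v s => hF s v⟩

/-- Spoiler side, separate convention. -/
theorem SEquiv.exists_bij (h : SEquiv k G H) :
    ∃ F : (Fin k → Fin n) ≃ (Fin k → Fin m), ∀ v, SStab k G H v (F v) := by
  obtain ⟨F, hF⟩ := exists_forall_of_antitone (E := (Fin k → Fin n) ≃ (Fin k → Fin m))
    (fun s F => ∀ v, scolor G k s v = scolor H k s (F v))
    (fun s e he v => ((scolor_succ_iff s _ _).1 (he v)).1)
    (fun s => exists_equiv_of_map_univ_eq _ _ (h s))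
  exact ⟨F, fun v s => hF s v⟩

theorem JStab.toSStab {v : Fin k → Fin n} {w : Fin k → Fin m} (h : JStab k G H v w) :
    SStab k G H v w :=
  SStab.of_rel (JStab k G H) (fun v w h => h 0)
    (fun v w h i => by
      obtain ⟨-, f, hf⟩ := (jstab_iff v w).1 h
      exact ⟨f, fun z => hf z i⟩) h

theorem JEquiv.toSEquiv (h : JEquiv k G H) : SEquiv k G H := by
  obtain ⟨F, hF⟩ := JEquiv.exists_bij h
  exact fun s => map_univ_eq_of_equiv _ _ F (fun v => (hF v).toSStab s)

/-- Equivalent graphs have equally many vertices (`k ≥ 1`). -/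
theorem JEquiv.card_eq (hk : 0 < k) (h : JEquiv k G H) : n = m := by
  obtain ⟨F, -⟩ := JEquiv.exists_bij h
  have h1 := Fintype.card_congr F
  simp only [Fintype.card_fun, Fintype.card_fin] at h1
  exact Nat.pow_left_injective (Nat.pos_iff_ne_zero.1 hk) h1

theorem SEquiv.card_eq (hk : 0 < k) (h : SEquiv k G H) : n = m := by
  obtain ⟨F, -⟩ := SEquiv.exists_bij h
  have h1 := Fintype.card_congr F
  simp only [Fintype.card_fun, Fintype.card_fin] at h1
  exact Nat.pow_left_injective (Nat.pos_iff_ne_zero.1 hk) h1

end Crest.Agent.WLD
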