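import Crest.Agent.WLD.DiagFinal

/-!
Row 290 (C): `Core` from UNPADDED graphs given by a unary size function `m` and polynomial-time
adjacency predicates `A`, `A'`.
-/

set_option autoImplicit false

namespace Crest.Agent.WLD

open Crest.Agent.CHR Crest.Agent.WLX Crest.Agent.WLM Crest.CountHier Crest.WLRefine

open Classical in
/-- matrix of a predicate -/
noncomputable def mat (m : ℕ) (A : ℕ → ℕ → Prop) : Fin m → Fin m → Bool :=
  fun u v => decide (A u v)

/-- the padded adjacency predicate -/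
def PA (m n : ℕ) (A : ℕ → ℕ → Prop) (u v : ℕ) : Prop :=
  (u < m ∧ v < m ∧ A u v) ∨ ¬ ((u + 1 = n) ↔ (v + 1 = n))

theorem padG_mat (m n : ℕ) (A : ℕ → ℕ → Prop) : padG n (mat m A) = mat n (PA m n A) := by
  classical
  funext u v
  unfold padG mat PA
  by_cases h : u.val < m ∧ v.val < m
  · rw [dif_pos h]
    by_cases h1 : u.val + 1 = n <;> by_cases h2 : v.val + 1 = n <;>
      by_cases h3 : A u.val v.val <;> simp [h.1, h.2, h1, h2, h3]
  · rw [dif_neg h]
    have h' : ¬ (u.val < m ∧ v.val < m ∧ A u.val v.val) := fun h'' => h ⟨h''.1, h''.2.1⟩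
    by_cases h1 : u.val + 1 = n <;> by_cases h2 : v.val + 1 = n <;> simp [h', h1, h2]

theorem UP_PA {m : W → ℕ} {A : W → ℕ → ℕ → Prop} (hm : UN m)
    (hA : UP (fun z => A (fstB (fstB z)) (sndB (fstB z)).length (sndB z).length)) :
    UP (fun z => PA (m (fstB (fstB z))) (sndB (fstB (fstB z))).length (A (fstB (fstB z)))
      (sndB (fstB z)).length (sndB z).length) := by
  have hm2 : UN (fun z => m (fstB (fstB z))) := hm.fst.fst
  have hn2 : UN (fun z : W => (sndB (fstB (fstB z))).length) :=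
    (UN.len (PT.comp PT.snd (PT.comp PT.fst PT.fst)))
  have hu : UN (fun z : W => (sndB (fstB z)).length) := UN.len (PT.comp PT.snd PT.fst)
  have hv : UN (fun z : W => (sndB z).length) := UN.var
  exact ((UP.lt hu hm2).and ((UP.lt hv hm2).and hA)).or
    (((UP.eqN (hu.add (UN.const 1)) hn2).iff (UP.eqN (hv.add (UN.const 1)) hn2)).not)

/-- the pair code of the padded graphs -/
noncomputable def pairF (m : W → ℕ) (A A' : W → ℕ → ℕ → Prop) (w : W) : W :=
  adjMatrixCode (mat (sndB w).length (PA (m w) (sndB w).length (A w))) ++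
    adjMatrixCode (mat (sndB w).length (PA (m w) (sndB w).length (A' w)))

theorem PT_pairF {m : W → ℕ} {A A' : W → ℕ → ℕ → Prop} (hm : UN m)
    (hA : UP (fun z => A (fstB (fstB z)) (sndB (fstB z)).length (sndB z).length))
    (hA' : UP (fun z => A' (fstB (fstB z)) (sndB (fstB z)).length (sndB z).length)) :
    PolyTime (pairF m A A') := by
  have hn : UN (fun w : W => (sndB w).length) := UN.var
  exact PT.append
    (PT.adjCode (A := fun w => PA (m w) (sndB w).length (A w)) hn (UP_PA hm hA))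
    (PT.adjCode (A := fun w => PA (m w) (sndB w).length (A' w)) hn (UP_PA hm hA'))

theorem pairF_eq (m : W → ℕ) (A A' : W → ℕ → ℕ → Prop) (z : W) (n : ℕ) :
    pairF m A A' (pairBits z (un n)) =
      adjMatrixCode (padG n (mat (m (pairBits z (un n))) (A (pairBits z (un n))))) ++
      adjMatrixCode (padG n (mat (m (pairBits z (un n))) (A' (pairBits z (un n))))) := by
  have key : ∀ (w : W) (N : ℕ), N = n → ∀ B B' : ℕ → ℕ → Prop,
      adjMatrixCode (mat N (PA (m w) N B)) ++ adjMatrixCode (mat N (PA (m w) N B')) =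
      adjMatrixCode (padG n (mat (m w) B)) ++ adjMatrixCode (padG n (mat (m w) B')) := by
    intro w N hN B B'
    subst hN
    rw [padG_mat, padG_mat]
  exact key _ _ (by simp) _ _

/-- What the graph side has to deliver (unpadded), for the convention `E`. -/
def CoreG (E : (k : ℕ) → {n : ℕ} → (Fin n → Fin n → Bool) → (Fin n → Fin n → Bool) → Prop) :
    Prop :=
  ∃ (c' : ℝ) (k₁ : ℕ) (tc : Tab → W) (m : W → ℕ) (A A' : W → ℕ → ℕ → Prop),
    0 < c' ∧ UN m ∧
    UP (fun z => A (fstB (fstB z)) (sndB (fstB z)).length (sndB z).length) ∧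
    UP (fun z => A' (fstB (fstB z)) (sndB (fstB z)).length (sndB z).length) ∧
    ∀ k ≥ k₁, ∀ T : Tab, T.Ok → ∀ c₀ : ℕ, ∃ n₁ : ℕ, ∀ n ≥ n₁, ∀ z w : W,
      z = dz tc T k c₀ n → w = pairBits z (un n) →
      m w + 2 ≤ n ∧ 0 < m w ∧
      IsSimple (mat (m w) (A w)) ∧ IsSimple (mat (m w) (A' w)) ∧
      (∀ x, ∃ y, mat (m w) (A w) x y = true) ∧ (∀ x, ∃ y, mat (m w) (A' w) x y = true) ∧
      ∃ t : ℕ, (n : ℝ) ^ (c' * k) ≤ t ∧
        (E k (mat (m w) (A w)) (mat (m w) (A' w)) ↔ ¬ T.Acc z t)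

theorem core_of_coreG
    {E : (k : ℕ) → {n : ℕ} → (Fin n → Fin n → Bool) → (Fin n → Fin n → Bool) → Prop}
    (hpad : ∀ {m n k : ℕ} {G H : Fin m → Fin m → Bool}, IsSimple G → IsSimple H →
      (∀ x, ∃ y, G x y = true) → (∀ x, ∃ y, H x y = true) → 0 < m → m + 2 ≤ n → 2 ≤ k →
      (E k (padG n G) (padG n H) ↔ E k G H)) (h : CoreG E) : Core E := by
  obtain ⟨c', k₁, tc, m, A, A', hc', hm, hA, hA', h⟩ := h
  refine ⟨c', max k₁ 2, tc, pairF m A A', hc', PT_pairF hm hA hA', fun k hk T hT c₀ => ?_⟩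
  obtain ⟨n₁, hn₁⟩ := h k ((le_max_left _ _).trans hk) T hT c₀
  refine ⟨n₁, fun n hn => ?_⟩
  obtain ⟨h1, h2, h3, h4, h5, h6, t, h7, h8⟩ := hn₁ n hn _ _ rfl rfl
  refine ⟨_, _, ?_, ?_, pairF_eq m A A' _ n, t, h7, ?_⟩
  · exact padG_simpleConnDiamTwo h3 (by omega)
  · exact padG_simpleConnDiamTwo h4 (by omega)
  · rw [hpad h3 h4 h5 h6 h2 h1 ((le_max_right _ _).trans hk)]
    exact h8

theorem coreJ_of (h : CoreG (fun k _ G H => JEquiv k G H)) :
    Core (fun k _ G H => JEquiv k G H) :=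
  core_of_coreG (fun hG hH dG dH hm hmn hk => jequiv_pad_iff hG hH dG dH hm hmn hk) h

theorem coreS_of (h : CoreG (fun k _ G H => SEquiv k G H)) :
    Core (fun k _ G H => SEquiv k G H) :=
  core_of_coreG (fun hG hH dG dH hm hmn hk => sequiv_pad_iff hG hH dG dH hm hmn hk) h

end Crest.Agent.WLD
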