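import Crest.Agent.WLD.BF

/-!
Padding: a graph on `m` vertices without isolated vertices becomes a connected graph of diameter
at most two on exactly `n ≥ m + 2` vertices (isolated vertices + apex), preserving and reflecting
joint and separate equivalence at every dimension `k ≥ 2`.
-/

namespace Crest.Agent.WLD

open Crest.WLRefine Finset

set_option autoImplicit false

variable {m n k : ℕ}

/-- Padding of a graph on `m` vertices: vertices `< m` are the graph, the last vertex is an apex,
the others are (apart from the apex) isolated. -/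
def padG (n : ℕ) (G : Fin m → Fin m → Bool) : Fin n → Fin n → Bool := fun u v =>
  (if h : u.val < m ∧ v.val < m then G ⟨u, h.1⟩ ⟨v, h.2⟩ else false) ||
    (decide (u.val + 1 = n) ^^ decide (v.val + 1 = n))

theorem padG_emb (G : Fin m → Fin m → Bool) (hmn : m + 2 ≤ n) (x y : Fin m) :
    padG n G (Fin.castLE (by omega) x) (Fin.castLE (by omega) y) = G x y := by
  have h1 : ¬ (x.val + 1 = n) := by omega
  have h2 : ¬ (y.val + 1 = n) := by omega
  simp [padG, h1, h2]

theorem padG_out_left (G H : Fin m → Fin m → Bool) (u v v' : Fin n) (hmn : m + 2 ≤ n)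
    (hu : m ≤ u.val)
    (hv : (v.val < m ∧ v'.val < m) ∨ v = v') : padG n G u v = padG n H u v' := by
  have hu' : ¬ u.val < m := by omega
  rcases hv with ⟨h1, h2⟩ | h
  · have h3 : ¬ (v.val + 1 = n) := by omega
    have h4 : ¬ (v'.val + 1 = n) := by omega
    simp [padG, hu', h3, h4]
  · subst h
    simp [padG, hu']

theorem padG_symm (G : Fin m → Fin m → Bool) (hG : ∀ u v, G u v = G v u) (u v : Fin n) :
    padG n G u v = padG n G v u := by
  unfold padG
  by_cases h : u.val < m ∧ v.val < m
  · rw [dif_pos h, dif_pos ⟨h.2, h.1⟩, hG, Bool.xor_comm]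
  · rw [dif_neg h, dif_neg (fun h' => h ⟨h'.2, h'.1⟩), Bool.xor_comm]

theorem padG_simple {G : Fin m → Fin m → Bool} (hG : IsSimple G) : IsSimple (padG n G) := by
  refine ⟨padG_symm G hG.1, fun v => ?_⟩
  unfold padG
  by_cases h : v.val < m ∧ v.val < m
  · rw [dif_pos h, hG.2]; simp
  · rw [dif_neg h]; simp

theorem padG_apex (G : Fin m → Fin m → Bool) (a u : Fin n) (ha : a.val + 1 = n) (hu : u ≠ a) :
    padG n G u a = true := by
  have : ¬ (u.val + 1 = n) := fun h => hu (Fin.ext (by omega))
  simp [padG, this, ha]

theorem padG_simpleConnDiamTwo {G : Fin m → Fin m → Bool} (hG : IsSimple G) (hn : 0 < n) :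
    SimpleConnDiamTwo (padG n G) := by
  have hs := padG_simple (n := n) hG
  obtain ⟨a, ha⟩ : ∃ a : Fin n, a.val + 1 = n := ⟨⟨n - 1, by omega⟩, by simp; omega⟩
  refine ⟨hs, ?_, ?_⟩
  · have hadj : ∀ u, u ≠ a → (adjGraph (padG n G)).Adj u a := by
      intro u hu
      rw [adjGraph, SimpleGraph.fromRel_adj]
      exact ⟨hu, Or.inl (padG_apex G a u ha hu)⟩
    have : Nonempty (Fin n) := ⟨a⟩
    rw [SimpleGraph.connected_iff]
    refine ⟨fun u v => ?_, inferInstance⟩
    have hr : ∀ u, (adjGraph (padG n G)).Reachable u a := by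
      intro u
      by_cases hu : u = a
      · subst hu; exact SimpleGraph.Reachable.refl _
      · exact (hadj u hu).reachable
    exact (hr u).trans (hr v).symm
  · intro u v huv
    by_cases hu : u = a
    · left
      subst hu
      rw [hs.1]
      exact padG_apex G u v ha (fun h => huv h.symm)
    · by_cases hv : v = a
      · left; subst hv; exact padG_apex G v u ha hu
      · right
        exact ⟨a, padG_apex G a u ha hu, by rw [hs.1]; exact padG_apex G a v ha hv⟩

/-! ### Degrees -/

/-- Degree. -/
def dg (G : Fin n → Fin n → Bool) (u : Fin n) : ℕ := (univ.filter fun v => G u v = true).card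

theorem dg_eq_of_sstab {n' : ℕ} {G : Fin n → Fin n → Bool} {H : Fin n' → Fin n' → Bool}
    (hk : 2 ≤ k) {v : Fin k → Fin n} {w : Fin k → Fin n'} (h : SStab k G H v w) (i : Fin k) :
    dg G (v i) = dg H (w i) := by
  obtain ⟨j, hj⟩ : ∃ j : Fin k, j ≠ i := by
    by_cases h0 : i.val = 0
    · exact ⟨⟨1, by omega⟩, fun h => by have := congrArg Fin.val h; simp at this; omega⟩
    · exact ⟨⟨0, by omega⟩, fun h => h0 (by have := congrArg Fin.val h; simp at this; omega)⟩
  obtain ⟨f, hf⟩ := ((sstab_iff v w).1 h).2 j
  unfold dg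
  refine Finset.card_bij (fun z _ => f z) ?_ ?_ ?_
  · intro z hz
    rw [mem_filter] at hz ⊢
    refine ⟨mem_univ _, ?_⟩
    have h1 := congrFun (congrFun (congrArg Prod.snd (hf z 0)) i) j
    have h2 : G (Function.update v j z i) (Function.update v j z j)
        = H (Function.update w j (f z) i) (Function.update w j (f z) j) := h1
    rw [Function.update_of_ne hj.symm, Function.update_self, Function.update_of_ne hj.symm,
      Function.update_self] at h2
    rw [← h2]; exact hz.2
  · intro a _ b _ hab
    exact f.injective hab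
  · intro b hb
    rw [mem_filter] at hb
    refine ⟨f.symm b, ?_, by simp⟩
    rw [mem_filter]
    refine ⟨mem_univ _, ?_⟩
    have h1 := congrFun (congrFun (congrArg Prod.snd (hf (f.symm b) 0)) i) j
    have h2 : G (Function.update v j (f.symm b) i) (Function.update v j (f.symm b) j)
        = H (Function.update w j (f (f.symm b)) i) (Function.update w j (f (f.symm b)) j) := h1
    rw [Function.update_of_ne hj.symm, Function.update_self, Function.update_of_ne hj.symm,
      Function.update_self, Equiv.apply_symm_apply] at h2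
    rw [h2]; exact hb.2

theorem dg_pad_iff {G : Fin m → Fin m → Bool} (hG : IsSimple G) (hdeg : ∀ x, ∃ y, G x y = true)
    (hmn : m + 2 ≤ n) (h3 : 3 ≤ n) (u : Fin n) :
    (2 ≤ dg (padG n G) u ∧ dg (padG n G) u ≤ n - 2) ↔ u.val < m := by
  have hs := padG_simple (n := n) hG
  obtain ⟨a, ha⟩ : ∃ a : Fin n, a.val + 1 = n := ⟨⟨n - 1, by omega⟩, by simp; omega⟩
  constructor
  · rintro ⟨h1, h2⟩
    by_contra hu
    by_cases hua : u = a
    · -- apex has degree n - 1
      have hsub : (univ.erase u) ⊆ (univ.filter fun v => padG n G u v = true) := by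
        intro v hv
        rw [mem_erase] at hv
        rw [mem_filter]
        refine ⟨mem_univ _, ?_⟩
        rw [hs.1, hua]
        exact padG_apex G a v ha (by rw [← hua]; exact hv.1)
      have := card_le_card hsub
      rw [card_erase_of_mem (mem_univ _), card_univ, Fintype.card_fin] at this
      unfold dg at h2
      omega
    · have hsub : (univ.filter fun v => padG n G u v = true) ⊆ {a} := by
        intro v hv
        rw [mem_filter] at hv
        rw [mem_singleton]
        have h3 := hv.2
        have hu2 : ¬ (u.val + 1 = n) := fun h => hua (Fin.ext (by omega))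
        by_contra hva
        have hv2 : ¬ (v.val + 1 = n) := fun h => hva (Fin.ext (by omega))
        simp [padG, hu, hu2, hv2] at h3
      have := card_le_card hsub
      rw [card_singleton] at this
      unfold dg at h1
      omega
  · intro hu
    obtain ⟨y, hy⟩ := hdeg ⟨u, hu⟩
    have hue : u = Fin.castLE (by omega) (⟨u, hu⟩ : Fin m) := Fin.ext rfl
    constructor
    · have hsub : ({Fin.castLE (by omega) y, a} : Finset (Fin n)) ⊆
          (univ.filter fun v => padG n G u v = true) := by
        intro v hv
        rw [mem_insert, mem_singleton] at hv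
        rw [mem_filter]
        refine ⟨mem_univ _, ?_⟩
        rcases hv with rfl | rfl
        · have h4 := padG_emb G hmn ⟨u, hu⟩ y
          rw [← hue] at h4
          rw [h4]; exact hy
        · refine padG_apex G _ u ha (fun h => ?_)
          rw [h] at hu; omega
      have h1 := card_le_card hsub
      rw [card_pair] at h1
      · exact h1
      · intro h
        have h2 := congrArg Fin.val h
        simp at h2
        have := y.2
        omega
    · -- `u` and vertex `m` are not neighbours
      have hsub : (univ.filter fun v => padG n G u v = true) ⊆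
          ((univ.erase u).erase ⟨m, by omega⟩) := by
        intro v hv
        rw [mem_filter] at hv
        rw [mem_erase, mem_erase]
        refine ⟨?_, ?_, mem_univ _⟩
        · rintro rfl
          have h4 := hv.2
          have h5 : ¬ (u.val + 1 = n) := by omega
          have h6 : ¬ (m + 1 = n) := by omega
          simp [padG, h5, h6] at h4
        · rintro rfl
          have := hs.2 v
          rw [this] at hv
          exact absurd hv.2 (by simp)
      have h1 := card_le_card hsub
      rw [card_erase_of_mem, card_erase_of_mem (mem_univ _), card_univ, Fintype.card_fin] at h1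
      · unfold dg; omega
      · rw [mem_erase]
        refine ⟨fun h => ?_, mem_univ _⟩
        have := congrArg Fin.val h
        simp at this
        omega

/-! ### Embedding and restriction -/

/-- Extension of a bijection of `Fin m` to `Fin n` by the identity. -/
noncomputable def extF (hmn : m ≤ n) (f : Fin m ≃ Fin m) : Fin n ≃ Fin n :=
  Equiv.ofBijective (fun z => if h : z.val < m then Fin.castLE hmn (f ⟨z, h⟩) else z) (by
    rw [← Finite.injective_iff_bijective]
    intro a b hab
    by_cases ha : a.val < m
    · by_cases hb : b.val < m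
      · simp only [dif_pos ha, dif_pos hb] at hab
        have h1 := Fin.castLE_injective hmn hab
        have h2 := f.injective h1
        have h3 := congrArg Fin.val h2
        exact Fin.ext h3
      · simp only [dif_pos ha, dif_neg hb] at hab
        exfalso
        have := congrArg Fin.val hab
        simp at this
        have h3 := (f ⟨a, ha⟩).2
        omega
    · by_cases hb : b.val < m
      · simp only [dif_neg ha, dif_pos hb] at hab
        exfalso
        have := congrArg Fin.val hab
        simp at this
        have h3 := (f ⟨b, hb⟩).2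
        omega
      · simp only [dif_neg ha, dif_neg hb] at hab
        exact hab)

theorem extF_emb (hmn : m ≤ n) (f : Fin m ≃ Fin m) (x : Fin m) :
    extF hmn f (Fin.castLE hmn x) = Fin.castLE hmn (f x) := by
  unfold extF
  have : (Fin.castLE hmn x).val < m := x.2
  simp only [Equiv.ofBijective_apply, dif_pos this]
  rfl

theorem extF_out (hmn : m ≤ n) (f : Fin m ≃ Fin m) (z : Fin n) (hz : m ≤ z.val) :
    extF hmn f z = z := by
  unfold extF
  have : ¬ z.val < m := by omega
  simp only [Equiv.ofBijective_apply, dif_neg this]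

/-- The relation on padded tuples with hidden tuples. -/
def HR (n : ℕ) (hmn : m ≤ n) (S : (Fin k → Fin m) → (Fin k → Fin m) → Prop)
    (v' w' : Fin k → Fin n) : Prop :=
  ∃ v w, S v w ∧ ∀ i, (v' i = Fin.castLE hmn (v i) ∧ w' i = Fin.castLE hmn (w i)) ∨
    (m ≤ (v' i).val ∧ v' i = w' i)

theorem HR_atomic {G H : Fin m → Fin m → Bool} (hmn : m + 2 ≤ n)
    (S : (Fin k → Fin m) → (Fin k → Fin m) → Prop) (hGs : IsSimple G) (hHs : IsSimple H)
    (hS : ∀ v w, S v w → atomicType G v = atomicType H w)
    (v' w' : Fin k → Fin n) (h : HR n (by omega) S v' w') :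
    atomicType (padG n G) v' = atomicType (padG n H) w' := by
  obtain ⟨v, w, hvw, hi⟩ := h
  have ha := hS v w hvw
  have hle : m ≤ n := by omega
  refine Prod.ext (funext fun i => funext fun j => ?_) (funext fun i => funext fun j => ?_)
  · change decide (v' i = v' j) = decide (w' i = w' j)
    rw [decide_eq_decide]
    rcases hi i with ⟨a1, a2⟩ | ⟨a1, a2⟩ <;> rcases hi j with ⟨b1, b2⟩ | ⟨b1, b2⟩
    · rw [a1, a2, b1, b2, (Fin.castLE_injective hle).eq_iff, (Fin.castLE_injective hle).eq_iff]
      have h1 := congrFun (congrFun (congrArg Prod.fst ha) i) j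
      have h2 : decide (v i = v j) = decide (w i = w j) := h1
      exact decide_eq_decide.1 h2
    · constructor
      · intro h
        rw [a1] at h
        have := congrArg Fin.val h
        simp at this
        have h3 := (v i).2
        omega
      · intro h
        rw [a2, ← b2] at h
        have := congrArg Fin.val h
        simp at this
        have h3 := (w i).2
        omega
    · constructor
      · intro h
        rw [b1] at h
        have := congrArg Fin.val h
        simp at this
        have h3 := (v j).2
        omega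
      · intro h
        rw [b2, ← a2] at h
        have := congrArg Fin.val h
        simp at this
        have h3 := (w j).2
        omega
    · rw [a2, b2]
  · change padG n G (v' i) (v' j) = padG n H (w' i) (w' j)
    rcases hi i with ⟨a1, a2⟩ | ⟨a1, a2⟩ <;> rcases hi j with ⟨b1, b2⟩ | ⟨b1, b2⟩
    · rw [a1, a2, b1, b2, padG_emb G hmn, padG_emb H hmn]
      exact congrFun (congrFun (congrArg Prod.snd ha) i) j
    · rw [padG_symm G hGs.1, padG_symm H hHs.1, ← b2]
      refine padG_out_left G H _ _ _ hmn b1 (Or.inl ⟨?_, ?_⟩)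
      · rw [a1]; exact (v i).2
      · rw [a2]; exact (w i).2
    · rw [← a2]
      refine padG_out_left G H _ _ _ hmn a1 (Or.inl ⟨?_, ?_⟩)
      · rw [b1]; exact (v j).2
      · rw [b2]; exact (w j).2
    · rw [← a2]
      exact padG_out_left G H _ _ _ hmn a1 (Or.inr b2)

theorem HR_update (hmn : m ≤ n) (S : (Fin k → Fin m) → (Fin k → Fin m) → Prop)
    (v w : Fin k → Fin m) (hvw : S v w) (v' w' : Fin k → Fin n)
    (hi : ∀ i, (v' i = Fin.castLE hmn (v i) ∧ w' i = Fin.castLE hmn (w i)) ∨
      (m ≤ (v' i).val ∧ v' i = w' i)) (i : Fin k) (f : Fin m ≃ Fin m)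
    (hf : ∀ z, S (Function.update v i z) (Function.update w i (f z))) (z : Fin n) :
    HR n hmn S (Function.update v' i z) (Function.update w' i (extF hmn f z)) := by
  by_cases hz : z.val < m
  · have hze : z = Fin.castLE hmn (⟨z, hz⟩ : Fin m) := Fin.ext rfl
    refine ⟨Function.update v i ⟨z, hz⟩, Function.update w i (f ⟨z, hz⟩), hf _, fun j => ?_⟩
    by_cases hj : j = i
    · subst hj
      left
      rw [Function.update_self, Function.update_self, Function.update_self, Function.update_self]
      refine ⟨hze, ?_⟩
      conv_lhs => rw [hze]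
      rw [extF_emb]
    · rw [Function.update_of_ne hj, Function.update_of_ne hj, Function.update_of_ne hj,
        Function.update_of_ne hj]
      exact hi j
  · refine ⟨v, w, hvw, fun j => ?_⟩
    by_cases hj : j = i
    · subst hj
      right
      rw [Function.update_self, Function.update_self]
      exact ⟨by omega, (extF_out hmn f z (by omega)).symm⟩
    · rw [Function.update_of_ne hj, Function.update_of_ne hj]
      exact hi j

theorem atomic_emb {G : Fin m → Fin m → Bool} (hmn : m + 2 ≤ n) (v : Fin k → Fin m) :
    atomicType (padG n G) (fun i => Fin.castLE (by omega) (v i)) = atomicType G v := by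
  refine Prod.ext (funext fun i => funext fun j => ?_) (funext fun i => funext fun j => ?_)
  · change decide (Fin.castLE _ (v i) = Fin.castLE _ (v j)) = decide (v i = v j)
    rw [decide_eq_decide, (Fin.castLE_injective (by omega : m ≤ n)).eq_iff]
  · exact padG_emb G hmn _ _

/-- Restriction of a bijection of `Fin n` mapping `Fin m` into itself. -/
theorem exists_restrict (hmn : m ≤ n) (f' : Fin n ≃ Fin n)
    (h : ∀ x : Fin m, (f' (Fin.castLE hmn x)).val < m) :
    ∃ f : Fin m ≃ Fin m, ∀ x, f' (Fin.castLE hmn x) = Fin.castLE hmn (f x) := by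
  refine ⟨Equiv.ofBijective (fun x => ⟨f' (Fin.castLE hmn x), h x⟩) ?_, fun x => Fin.ext rfl⟩
  rw [← Finite.injective_iff_bijective]
  intro a b hab
  have h1 : (f' (Fin.castLE hmn a)).val = (f' (Fin.castLE hmn b)).val := by
    simpa using hab
  exact Fin.castLE_injective hmn (f'.injective (Fin.ext h1))

theorem update_emb (hmn : m ≤ n) (v : Fin k → Fin m) (i : Fin k) (x : Fin m) :
    Function.update (fun j => Fin.castLE hmn (v j)) i (Fin.castLE hmn x)
      = fun j => Fin.castLE hmn (Function.update v i x j) := by
  funext j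
  by_cases hj : j = i
  · subst hj; simp
  · rw [Function.update_of_ne hj, Function.update_of_ne hj]

section Main

variable {G H : Fin m → Fin m → Bool} (hG : IsSimple G) (hH : IsSimple H)
  (dG : ∀ x, ∃ y, G x y = true) (dH : ∀ x, ∃ y, H x y = true)
  (hm : 0 < m) (hmn : m + 2 ≤ n) (hk : 2 ≤ k)

include hG hH dG dH hm hmn hk

theorem sstab_pad_class {v' w' : Fin k → Fin n} (h : SStab k (padG n G) (padG n H) v' w')
    (i : Fin k) : (v' i).val < m ↔ (w' i).val < m := by
  rw [← dg_pad_iff hG dG hmn (by omega) (v' i), ← dg_pad_iff hH dH hmn (by omega) (w' i),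
    dg_eq_of_sstab hk h i]

theorem sequiv_pad_iff : SEquiv k (padG n G) (padG n H) ↔ SEquiv k G H := by
  have hle : m ≤ n := by omega
  constructor
  · intro h
    obtain ⟨F, hF⟩ := SEquiv.exists_bij h
    have h0 := hF (fun _ => Fin.castLE hle ⟨0, hm⟩)
    have hlt : ∀ i, (F (fun _ => Fin.castLE hle ⟨0, hm⟩) i).val < m := fun i =>
      (sstab_pad_class hG hH dG dH hm hmn hk h0 i).1 hm
    refine SEquiv.of_rel (fun v w => SStab k (padG n G) (padG n H)
      (fun i => Fin.castLE hle (v i)) (fun i => Fin.castLE hle (w i))) ?_ ?_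
      (v₀ := fun _ => ⟨0, hm⟩)
      (w₀ := fun i => ⟨F (fun _ => Fin.castLE hle ⟨0, hm⟩) i, hlt i⟩) h0
    · intro v w hvw
      rw [← atomic_emb hmn v, ← atomic_emb hmn w]
      exact hvw 0
    · intro v w hvw i
      obtain ⟨f', hf'⟩ := ((sstab_iff _ _).1 hvw).2 i
      obtain ⟨f, hf⟩ := exists_restrict hle f' (fun x => by
        have h1 := (sstab_pad_class hG hH dG dH hm hmn hk (hf' (Fin.castLE hle x)) i).1
        rw [Function.update_self, Function.update_self] at h1
        exact h1 x.2)
      refine ⟨f, fun z => ?_⟩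
      have h1 := hf' (Fin.castLE hle z)
      rw [hf z, update_emb, update_emb] at h1
      exact h1
  · intro h
    obtain ⟨F, hF⟩ := SEquiv.exists_bij h
    refine SEquiv.of_rel (HR n hle (SStab k G H))
      (HR_atomic hmn _ hG hH (fun v w h => h 0)) ?_
      (v₀ := fun _ => ⟨n - 1, by omega⟩) (w₀ := fun _ => ⟨n - 1, by omega⟩)
      ⟨fun _ => ⟨0, hm⟩, F (fun _ => ⟨0, hm⟩), hF _, fun i => Or.inr ⟨?_, rfl⟩⟩
    · rintro v' w' ⟨v, w, hvw, hi⟩ i
      obtain ⟨f, hf⟩ := ((sstab_iff v w).1 hvw).2 i
      exact ⟨extF hle f, fun z => HR_update hle _ v w hvw v' w' hi i f hf z⟩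
    · simp only; omega

theorem jequiv_pad_iff : JEquiv k (padG n G) (padG n H) ↔ JEquiv k G H := by
  have hle : m ≤ n := by omega
  constructor
  · intro h
    obtain ⟨F, hF⟩ := JEquiv.exists_bij h
    have h0 := hF (fun _ => Fin.castLE hle ⟨0, hm⟩)
    have hlt : ∀ i, (F (fun _ => Fin.castLE hle ⟨0, hm⟩) i).val < m := fun i =>
      (sstab_pad_class hG hH dG dH hm hmn hk h0.toSStab i).1 hm
    refine JEquiv.of_rel (fun v w => JStab k (padG n G) (padG n H)
      (fun i => Fin.castLE hle (v i)) (fun i => Fin.castLE hle (w i))) ?_ ?_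
      (v₀ := fun _ => ⟨0, hm⟩)
      (w₀ := fun i => ⟨F (fun _ => Fin.castLE hle ⟨0, hm⟩) i, hlt i⟩) h0
    · intro v w hvw
      rw [← atomic_emb hmn v, ← atomic_emb hmn w]
      exact hvw 0
    · intro v w hvw
      obtain ⟨f', hf'⟩ := ((jstab_iff _ _).1 hvw).2
      obtain ⟨f, hf⟩ := exists_restrict hle f' (fun x => by
        have h1 := (sstab_pad_class hG hH dG dH hm hmn hk
          (hf' (Fin.castLE hle x) ⟨0, by omega⟩).toSStab ⟨0, by omega⟩).1
        rw [Function.update_self, Function.update_self] at h1
        exact h1 x.2)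
      refine ⟨f, fun z i => ?_⟩
      have h1 := hf' (Fin.castLE hle z) i
      rw [hf z, update_emb, update_emb] at h1
      exact h1
  · intro h
    obtain ⟨F, hF⟩ := JEquiv.exists_bij h
    refine JEquiv.of_rel (HR n hle (JStab k G H))
      (HR_atomic hmn _ hG hH (fun v w h => h 0)) ?_
      (v₀ := fun _ => ⟨n - 1, by omega⟩) (w₀ := fun _ => ⟨n - 1, by omega⟩)
      ⟨fun _ => ⟨0, hm⟩, F (fun _ => ⟨0, hm⟩), hF _, fun i => Or.inr ⟨?_, rfl⟩⟩
    · rintro v' w' ⟨v, w, hvw, hi⟩
      obtain ⟨f, hf⟩ := ((jstab_iff v w).1 hvw).2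
      exact ⟨extF hle f, fun z i => HR_update hle _ v w hvw v' w' hi i f (fun z => hf z i) z⟩
    · simp only; omega

end Main

end Crest.Agent.WLD
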