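import Crest.Agent.WLD.Expand
import Crest.Agent.WLD.Pad
import Crest.Agent.WLX.UNCode
import Crest.Agent.WLX.UNIter
import Crest.Agent.WLM.Tab
import Crest.Prelude.Def_WordRAM

/-!
Row 290 (C): the diagonalisation for S0435 and S0439.

Interfaces (hypotheses of the final theorems `diag_tm`, `diag_ram`):
* `CoreProp E tc c' k₁ f`: the core theorem for the convention `E` (joint or separate);
* `TM2Prop`: every `TM2ComputableInTime` machine is simulated by a structured program;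
* `RamProp q₀`: every word-RAM program is simulated by a structured program, overhead of absolute
  degree `q₀`.
-/

set_option autoImplicit false

namespace Crest.Agent.WLD

open Crest.Agent.CHR Crest.Agent.WLX Crest.Agent.WLM Crest.CountHier Crest.WLRefine

/-- The input of the diagonal machine with table `T`: `T`, `k`, `c₀` (as data) and `n` in binary. -/
def dz (tc : Tab → W) (T : Tab) (k c₀ n : ℕ) : W :=
  pn (pairBits (tc T) (pairBits (un k) (un c₀))) n

/-- The core theorem for the convention `E` (`JEquiv` or `SEquiv`). -/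
def CoreProp (E : (k : ℕ) → {n : ℕ} → (Fin n → Fin n → Bool) → (Fin n → Fin n → Bool) → Prop)
    (tc : Tab → W) (c' : ℝ) (k₁ : ℕ) (f : W → W) : Prop :=
  ∀ k ≥ k₁, ∀ T : Tab, T.Ok → ∀ c₀ : ℕ, ∃ n₁ : ℕ, ∀ n ≥ n₁,
    ∃ G H : Fin n → Fin n → Bool, SimpleConnDiamTwo G ∧ SimpleConnDiamTwo H ∧
      f (pairBits (dz tc T k c₀ n) (un n)) = adjMatrixCode G ++ adjMatrixCode H ∧
      ∃ t : ℕ, (n : ℝ) ^ (c' * k) ≤ t ∧ (E k G H ↔ ¬ T.Acc (dz tc T k c₀ n) t)

/-- Simulation of `FinTM2` machines. -/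
def TM2Prop : Prop :=
  ∀ (α : Type) (ea : α → W) (g : α → Bool)
    (M : Turing.TM2ComputableInTime ea Computability.encodeBool g),
    ∃ (P : Prog) (C : ℕ), ∀ a, ∃ t ≤ C * M.time (ea a).length + C * (ea a).length + C,
      Ev P (ini (ea a)) t (ini [g a])

/-- Simulation of word-RAM programs (random stream `0`). -/
def RamProp (q₀ : ℕ) : Prop :=
  ∀ P : Crest.WordRAM.Program, ∃ (R : Prog) (C : ℕ), ∀ (w : ℕ) (x : W) (t₀ : ℕ),
    (Crest.WordRAM.run P w (fun _ => 0) (x.map fun b => if b then 1 else 0) t₀).halted = true →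
      ∃ t ≤ C * (t₀ + x.length + w + 2) ^ q₀, ∃ b : Bool,
        Ev R (ini (pairBits (un w) x)) t (ini [b]) ∧
        (b = true ↔ (Crest.WordRAM.run P w (fun _ => 0)
          (x.map fun b => if b then 1 else 0) t₀).output = [1])

/-! ### Codes -/

theorem natCode_append (n : ℕ) (R : W) :
    Crest.Enc.natCode n ++ R = pairBits (Nat.bits n) (false :: R) := by
  rw [natCode_eq]
  have : ∀ x y z : W, pairBits x y ++ z = pairBits x (y ++ z) := by
    intro x y z
    induction x with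
    | nil => rfl
    | cons b x ih =>
      have h1 : ∀ v, pairBits (b :: x) v = true :: b :: pairBits x v := fun v => rfl
      rw [h1, h1, List.cons_append, List.cons_append, ih]
  rw [this]; rfl

/-- the rows of the matrix -/
def matList {n : ℕ} (G : Fin n → Fin n → Bool) : W :=
  (List.finRange n).flatMap fun v => (List.finRange n).map fun w => G v w

theorem adjMatrixCode_def {n : ℕ} (G : Fin n → Fin n → Bool) :
    adjMatrixCode G = Crest.Enc.natCode n ++ matList G := rfl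

theorem matList_length {n : ℕ} (G : Fin n → Fin n → Bool) : (matList G).length = n * n := by
  unfold matList
  rw [List.length_flatMap]
  simp

theorem matList_inj {n : ℕ} {G H : Fin n → Fin n → Bool} (h : matList G = matList H) : G = H := by
  have key : ∀ (l : List (Fin n)), (l.flatMap fun v => (List.finRange n).map fun w => G v w) =
      (l.flatMap fun v => (List.finRange n).map fun w => H v w) → ∀ v ∈ l, ∀ w, G v w = H v w := by
    intro l
    induction l with
    | nil => intro _ v hv; simp at hv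
    | cons a l ih =>
      intro h v hv w
      rw [List.flatMap_cons, List.flatMap_cons] at h
      obtain ⟨h1, h2⟩ := List.append_inj h (by simp)
      rcases List.mem_cons.1 hv with rfl | hv
      · have h3 := List.map_inj_left.1 h1
        exact h3 w (List.mem_finRange w)
      · exact ih h2 v hv w
  funext v w
  exact key _ h v (List.mem_finRange v) w

theorem adjMatrixCode_append_inj {n m : ℕ} {G : Fin n → Fin n → Bool} {H : Fin m → Fin m → Bool}
    {R S : W} (h : adjMatrixCode G ++ R = adjMatrixCode H ++ S) :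
    ∃ e : n = m, (e ▸ G) = H ∧ R = S := by
  rw [adjMatrixCode_def, adjMatrixCode_def, List.append_assoc, List.append_assoc,
    natCode_append, natCode_append] at h
  have h1 := congrArg fstB h
  have h2 := congrArg sndB h
  rw [fstB_pairBits, fstB_pairBits] at h1
  rw [sndB_pairBits, sndB_pairBits] at h2
  have h3 : n = m := by
    have := congrArg val h1
    simpa using this
  subst h3
  have h4 : matList G ++ R = matList H ++ S := by simpa using h2
  obtain ⟨h5, h6⟩ := List.append_inj h4 (by rw [matList_length, matList_length])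
  exact ⟨rfl, matList_inj h5, h6⟩

theorem pairCode_length {n : ℕ} (G H : Fin n → Fin n → Bool) :
    (adjMatrixCode G ++ adjMatrixCode H).length
      = 2 * ((Crest.Enc.natCode n).length + n * n) := by
  rw [adjMatrixCode_def, adjMatrixCode_def]
  simp only [List.length_append, matList_length]
  ring

theorem pairCode_mem_joint {n k : ℕ} (G H : Fin n → Fin n → Bool) (hG : IsSimple G)
    (hH : IsSimple H) :
    adjMatrixCode G ++ adjMatrixCode H ∈ jointEquivLang k ↔ JEquiv k G H := by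
  constructor
  · rintro ⟨n', m', G', H', -, -, hE, he⟩
    obtain ⟨e1, h1, h2⟩ := adjMatrixCode_append_inj he
    subst e1
    simp only at h1
    subst h1
    have h3 : adjMatrixCode H ++ [] = adjMatrixCode H' ++ [] := by simpa using h2
    obtain ⟨e2, h4, -⟩ := adjMatrixCode_append_inj h3
    subst e2
    simp only at h4
    subst h4
    exact hE
  · intro h
    exact ⟨n, n, G, H, hG, hH, h, rfl⟩

theorem pairCode_mem_sep {n k : ℕ} (G H : Fin n → Fin n → Bool) (hG : IsSimple G)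
    (hH : IsSimple H) :
    adjMatrixCode G ++ adjMatrixCode H ∈ sepEquivLang k ↔ SEquiv k G H := by
  constructor
  · rintro ⟨n', m', G', H', -, -, hE, he⟩
    obtain ⟨e1, h1, h2⟩ := adjMatrixCode_append_inj he
    subst e1
    simp only at h1
    subst h1
    have h3 : adjMatrixCode H ++ [] = adjMatrixCode H' ++ [] := by simpa using h2
    obtain ⟨e2, h4, -⟩ := adjMatrixCode_append_inj h3
    subst e2
    simp only at h4
    subst h4
    exact hE
  · intro h
    exact ⟨n, n, G, H, hG, hH, h, rfl⟩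

/-! ### Estimates -/

theorem poly_le (p : Polynomial ℕ) : ∃ A B : ℕ, ∀ N : ℕ, p.eval N ≤ A * (N + 1) ^ B := by
  induction p using Polynomial.induction_on' with
  | add p q hp hq =>
    obtain ⟨A, B, h1⟩ := hp
    obtain ⟨A', B', h2⟩ := hq
    refine ⟨A + A', max B B', fun N => ?_⟩
    rw [Polynomial.eval_add, Nat.add_mul]
    exact add_le_add
      ((h1 N).trans (Nat.mul_le_mul_left _ (Nat.pow_le_pow_right (by omega) (le_max_left _ _))))
      ((h2 N).trans (Nat.mul_le_mul_left _ (Nat.pow_le_pow_right (by omega) (le_max_right _ _))))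
  | monomial k a =>
    refine ⟨a, k, fun N => ?_⟩
    rw [Polynomial.eval_monomial]
    exact Nat.mul_le_mul_left _ (Nat.pow_le_pow_left (by omega) k)

theorem dz_length (tc : Tab → W) (T : Tab) (k c₀ : ℕ) :
    ∃ C : ℕ, ∀ n, 1 ≤ n → (dz tc T k c₀ n).length + n + 1 ≤ C * n := by
  refine ⟨2 * (pairBits (tc T) (pairBits (un k) (un c₀))).length + 4, fun n hn => ?_⟩
  unfold dz pn
  rw [pairBits_length']
  have h1 : (Nat.bits n).length ≤ n := by
    rw [Nat.size_eq_bits_len, Nat.size_le]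
    exact Nat.lt_two_pow_self
  have h2 : (pairBits (tc T) (pairBits (un k) (un c₀))).length * 1 ≤
      (pairBits (tc T) (pairBits (un k) (un c₀))).length * n := Nat.mul_le_mul_left _ hn
  nlinarith

theorem natCode_length_le (n : ℕ) : (Crest.Enc.natCode n).length ≤ 2 * n + 2 := by
  have h := natCode_append n []
  rw [List.append_nil] at h
  rw [h, pairBits_length']
  have h1 : (Nat.bits n).length ≤ n := by
    rw [Nat.size_eq_bits_len, Nat.size_le]
    exact Nat.lt_two_pow_self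
  simp only [List.length_cons, List.length_nil]
  omega

/-- The final estimate. -/
theorem final_est {e : ℝ} (B : ℕ) (K : ℝ) (he : (B : ℝ) + 1 ≤ e) :
    ∃ n₀ : ℕ, ∀ n ≥ n₀, ∀ X : ℝ, 0 ≤ X → (n : ℝ) ^ (2 * e) ≤ K * ((n : ℝ) ^ B + X) →
      (n : ℝ) ^ e ≤ X := by
  obtain ⟨n₀, hn₀⟩ := exists_nat_gt (2 * max K 1)
  refine ⟨max n₀ 1, fun n hn X hX0 hX => ?_⟩
  have hn1 : (1 : ℝ) ≤ n := by exact_mod_cast (le_max_right n₀ 1).trans hn
  have hnK : 2 * max K 1 < n := lt_of_lt_of_le hn₀ (by exact_mod_cast (le_max_left n₀ 1).trans hn)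
  have hn0 : (0 : ℝ) < n := by linarith
  by_contra hcon
  push Not at hcon
  have h1 : (n : ℝ) ^ B ≤ (n : ℝ) ^ e := by
    rw [← Real.rpow_natCast]
    exact Real.rpow_le_rpow_of_exponent_le hn1 (by linarith)
  have he1 : (0 : ℝ) < (n : ℝ) ^ e := Real.rpow_pos_of_pos hn0 e
  have h2 : (n : ℝ) ^ (2 * e) = (n : ℝ) ^ e * (n : ℝ) ^ e := by
    rw [two_mul, Real.rpow_add hn0]
  have hB0 : (0 : ℝ) ≤ (n : ℝ) ^ B := by positivity
  have h3 : (n : ℝ) ≤ (n : ℝ) ^ e := by
    have := Real.rpow_le_rpow_of_exponent_le hn1 (show (1 : ℝ) ≤ e by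
      have : (0 : ℝ) ≤ B := Nat.cast_nonneg B
      linarith)
    rwa [Real.rpow_one] at this
  rw [h2] at hX
  have hK1 : (0 : ℝ) < max K 1 := lt_of_lt_of_le one_pos (le_max_right _ _)
  have h4 : K * ((n : ℝ) ^ B + X) ≤ max K 1 * (2 * (n : ℝ) ^ e) := by
    calc K * ((n : ℝ) ^ B + X) ≤ max K 1 * ((n : ℝ) ^ B + X) :=
          mul_le_mul_of_nonneg_right (le_max_left _ _) (by positivity)
      _ ≤ max K 1 * (2 * (n : ℝ) ^ e) := by
          apply mul_le_mul_of_nonneg_left _ hK1.le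
          linarith
  nlinarith

/-- Abstract diagonalisation: a program `D` which on every input `dz T k c₀ n` (`T` = its own
table, `n` large) answers the equivalence question of the pair in time `≤ K (n^B + X n)`. -/
theorem diag_abs {E : (k : ℕ) → {n : ℕ} → (Fin n → Fin n → Bool) → (Fin n → Fin n → Bool) → Prop}
    {tc : Tab → W} {c' : ℝ} {k₁ : ℕ} {f : W → W} (hcore : CoreProp E tc c' k₁ f)
    {k : ℕ} (hk : k₁ ≤ k) (c₀ : ℕ) (D : Prog) (X : ℕ → ℝ) (hX : ∀ n, 0 ≤ X n) (B K : ℕ)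
    (hB : (B : ℝ) + 1 ≤ c' / 2 * k)
    (hD : ∀ n ≥ 1, ∀ G H : Fin n → Fin n → Bool, SimpleConnDiamTwo G → SimpleConnDiamTwo H →
      f (pairBits (dz tc (tabOf D) k c₀ n) (un n)) = adjMatrixCode G ++ adjMatrixCode H →
      ∃ (t : ℕ) (b : Bool), Ev D (ini (dz tc (tabOf D) k c₀ n)) t (ini [b]) ∧
        (b = true ↔ E k G H) ∧ (t : ℝ) ≤ K * ((n : ℝ) ^ B + X n)) :
    ∃ n₀ : ℕ, ∀ n ≥ n₀, (n : ℝ) ^ (c' / 2 * k) ≤ X n := by
  obtain ⟨n₁, hn₁⟩ := hcore k hk (tabOf D) (tabOf_ok D) c₀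
  obtain ⟨n₂, hn₂⟩ := final_est B ((3 * K + 7 : ℕ) : ℝ) hB
  refine ⟨max (max n₁ n₂) 1, fun n hn => ?_⟩
  have hn1 : n₁ ≤ n := (le_max_left _ _).trans ((le_max_left _ _).trans hn)
  have hn2 : n₂ ≤ n := (le_max_right _ _).trans ((le_max_left _ _).trans hn)
  have hn3 : 1 ≤ n := (le_max_right _ _).trans hn
  have hn3' : (1 : ℝ) ≤ n := by exact_mod_cast hn3
  obtain ⟨G, H, hG, hH, hf, T, hT, hE⟩ := hn₁ n hn1
  obtain ⟨t, b, hev, hb, ht⟩ := hD n hn3 G H hG hH hf
  obtain ⟨h1, h2⟩ := tabOf_spec hev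
  apply hn₂ n hn2 (X n) (hX n)
  have hlt : T < 3 * t + 7 := by
    by_contra hge
    push Not at hge
    cases b with
    | true =>
      have := (h1 rfl).mono hge
      exact (hE.1 (hb.1 rfl)) this
    | false =>
      have hnE : ¬ E k G H := fun h => by simpa using hb.2 h
      have : (tabOf D).Acc (dz tc (tabOf D) k c₀ n) T := by
        by_contra h; exact hnE (hE.2 h)
      exact h2 rfl T this
  have hlt' : (T : ℝ) ≤ 3 * t + 7 := by exact_mod_cast hlt.le
  have e1 : 2 * (c' / 2 * (k : ℝ)) = c' * k := by ring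
  rw [e1]
  have hnB : (1 : ℝ) ≤ (n : ℝ) ^ B := one_le_pow₀ hn3'
  have hXn := hX n
  calc (n : ℝ) ^ (c' * k) ≤ T := hT
    _ ≤ 3 * t + 7 := hlt'
    _ ≤ 3 * (K * ((n : ℝ) ^ B + X n)) + 7 * ((n : ℝ) ^ B + X n) := by linarith
    _ = ((3 * K + 7 : ℕ) : ℝ) * ((n : ℝ) ^ B + X n) := by push_cast; ring

/-- `S0435` for one convention. -/
theorem diag_tm (hTM : TM2Prop)
    {E : (k : ℕ) → {n : ℕ} → (Fin n → Fin n → Bool) → (Fin n → Fin n → Bool) → Prop}
    {tc : Tab → W} {c' : ℝ} (hc' : 0 < c') {k₁ : ℕ} {f : W → W} (hf : PolyTime f)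
    (hcore : CoreProp E tc c' k₁ f) (L : ℕ → Set W)
    (hL : ∀ k n (G H : Fin n → Fin n → Bool), IsSimple G → IsSimple H →
      (adjMatrixCode G ++ adjMatrixCode H ∈ L k ↔ E k G H)) :
    ∃ k₀ : ℕ, ∀ k ≥ k₀, ∀ (g : diamTwoPairCodes → Bool), (∀ x, x.1 ∈ L k ↔ g x = true) →
      ∀ M : Turing.TM2ComputableInTime (fun x : diamTwoPairCodes => x.1)
          Computability.encodeBool g,
        ∃ n₀ : ℕ, ∀ n ≥ n₀,
          (n : ℝ) ^ (c' / 2 * k) ≤ M.time (2 * ((Crest.Enc.natCode n).length + n * n)) := by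
  obtain ⟨R, r, hR⟩ := expandProg hf
  obtain ⟨A, B, hr⟩ := poly_le r
  obtain ⟨k₂, hk₂⟩ := exists_nat_ge (((B + 2 : ℕ) + 1 : ℝ) / (c' / 2))
  refine ⟨max k₁ k₂, fun k hk g hg M => ?_⟩
  obtain ⟨P, C, hP⟩ := hTM _ _ g M
  obtain ⟨C₁, hC₁⟩ := dz_length tc (tabOf (R ;; P)) k 0
  refine diag_abs hcore ((le_max_left _ _).trans hk) 0 (R ;; P)
    (fun n => (M.time (2 * ((Crest.Enc.natCode n).length + n * n)) : ℝ))
    (fun n => Nat.cast_nonneg _) (B + 2) (A * C₁ ^ B + C * 11 + C) ?_ ?_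
  · have h1 : (k₂ : ℝ) ≤ k := by exact_mod_cast (le_max_right _ _).trans hk
    have h2 := hk₂.trans h1
    rw [div_le_iff₀ (by positivity)] at h2
    linarith
  · intro n hn G H hG hH hfe
    obtain ⟨t1, ht1, e1⟩ := hR (dz tc (tabOf (R ;; P)) k 0 n)
    have hval : val (sndB (dz tc (tabOf (R ;; P)) k 0 n)) = n := by
      simp [dz, pn]
    rw [hval] at ht1 e1
    rw [hfe] at e1
    have hmem : adjMatrixCode G ++ adjMatrixCode H ∈ diamTwoPairCodes := ⟨n, G, H, hG, hH, rfl⟩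
    obtain ⟨t2, ht2, e2⟩ := hP ⟨_, hmem⟩
    refine ⟨t1 + t2, g ⟨_, hmem⟩, Ev.seq e1 e2, ?_, ?_⟩
    · rw [← hg ⟨_, hmem⟩]
      exact hL k n G H hG.1 hH.1
    · have hlen := pairCode_length G H
      simp only [hlen] at ht2
      have hz := hC₁ n hn
      have h3 : t1 ≤ A * (C₁ * n) ^ B := by
        refine ht1.trans ((hr _).trans (Nat.mul_le_mul_left _ (Nat.pow_le_pow_left hz _)))
      have h4 : 2 * ((Crest.Enc.natCode n).length + n * n) ≤ 10 * n ^ 2 := by
        have := natCode_length_le n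
        nlinarith
      have h5 : n ^ 2 ≤ n ^ (B + 2) := Nat.pow_le_pow_right hn (by omega)
      have h6 : n ^ B ≤ n ^ (B + 2) := Nat.pow_le_pow_right hn (by omega)
      have h7 : 1 ≤ n ^ (B + 2) := Nat.one_le_pow _ _ hn
      have h8 : t1 + t2 ≤ (A * C₁ ^ B + C * 11 + C) *
          (n ^ (B + 2) + M.time (2 * ((Crest.Enc.natCode n).length + n * n))) := by
        have a1 : A * (C₁ * n) ^ B ≤ A * C₁ ^ B * n ^ (B + 2) := by
          rw [mul_pow, ← mul_assoc]
          exact Nat.mul_le_mul_left _ h6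
        have a2 : C * (2 * ((Crest.Enc.natCode n).length + n * n)) ≤ C * (10 * n ^ (B + 2)) :=
          Nat.mul_le_mul_left _ (h4.trans (Nat.mul_le_mul_left _ h5))
        have a3 : C * 1 ≤ C * n ^ (B + 2) := Nat.mul_le_mul_left _ h7
        generalize M.time (2 * ((Crest.Enc.natCode n).length + n * n)) = Y at *
        generalize n ^ (B + 2) = Z at *
        generalize A * C₁ ^ B = Q at *
        nlinarith [Nat.zero_le (Q * Y), Nat.zero_le (C * Y)]
      exact_mod_cast h8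

/-! ### The word-RAM version -/

theorem UN_clog {m : W → ℕ} (hm : UN m) : UN (fun w => Nat.clog 2 (m w)) := by
  have h1 : UP (fun z : W => Min.min (2 ^ (sndB z).length) (m (fstB z)) < m (fstB z)) :=
    UP.lt (UN.powMin (UN.const 2) UN.var hm.fst) hm.fst
  have h2 := UN.card (P := fun w i => Min.min (2 ^ i) (m w) < m w) hm h1
  refine h2.congr fun w => ?_
  have h3 : (Finset.range (m w)).filter (fun i => Min.min (2 ^ i) (m w) < m w)
      = Finset.range (Nat.clog 2 (m w)) := by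
    ext i
    rw [Finset.mem_filter, Finset.mem_range, Finset.mem_range,
      Nat.lt_clog_iff_pow_lt (by norm_num)]
    constructor
    · rintro ⟨-, h⟩
      by_contra hc
      push Not at hc
      rw [min_eq_right hc] at h
      exact lt_irrefl _ h
    · intro h
      refine ⟨lt_of_lt_of_le (Nat.lt_two_pow_self) h.le, ?_⟩
      exact lt_of_le_of_lt (min_le_left _ _) h
  have h4 := congrArg Finset.card h3
  rw [Finset.card_range] at h4
  rw [← h4]
  congr

/-- The word length (unary) followed by the pair code. -/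
noncomputable def framF (f : W → W) (w : W) : W :=
  pairBits (un ((sndB (sndB (fstB (fstB w)))).length * Nat.clog 2 ((sndB w).length + 2))) (f w)

theorem PT_ramF {f : W → W} (hf : PolyTime f) : PolyTime (framF f) := by
  have h1 : PolyTime (fun w : W => sndB (sndB (fstB (fstB w)))) :=
    PT.comp PT.snd (PT.comp PT.snd (PT.comp PT.fst PT.fst))
  have h2 : UN (fun w : W => (sndB (sndB (fstB (fstB w)))).length *
      Nat.clog 2 ((sndB w).length + 2)) :=
    UN.mul (UN.len h1) (UN_clog (UN.add UN.var (UN.const 2)))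
  exact PT.pair h2 hf

theorem add_pow_le (a b q : ℕ) : (a + b) ^ q ≤ 2 ^ q * (a ^ q + b ^ q) := by
  rcases le_total a b with h | h
  · calc (a + b) ^ q ≤ (2 * b) ^ q := Nat.pow_le_pow_left (by omega) q
      _ = 2 ^ q * b ^ q := by rw [mul_pow]
      _ ≤ 2 ^ q * (a ^ q + b ^ q) := Nat.mul_le_mul_left _ (by omega)
  · calc (a + b) ^ q ≤ (2 * a) ^ q := Nat.pow_le_pow_left (by omega) q
      _ = 2 ^ q * a ^ q := by rw [mul_pow]
      _ ≤ 2 ^ q * (a ^ q + b ^ q) := Nat.mul_le_mul_left _ (by omega)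

/-- `S0439` for one convention. -/
theorem diag_ram {q₀ : ℕ} (hq : 0 < q₀) (hRam : RamProp q₀)
    {E : (k : ℕ) → {n : ℕ} → (Fin n → Fin n → Bool) → (Fin n → Fin n → Bool) → Prop}
    {tc : Tab → W} {c' : ℝ} (hc' : 0 < c') {k₁ : ℕ} {f : W → W} (hf : PolyTime f)
    (hcore : CoreProp E tc c' k₁ f) :
    ∃ k₀ : ℕ, ∀ k ≥ k₀, ∀ c₀ : ℕ, ∀ (P : Crest.WordRAM.Program) (T : ℕ → ℕ),
        (∀ (n : ℕ) (G H : Fin n → Fin n → Bool), SimpleConnDiamTwo G →
          SimpleConnDiamTwo H → ∀ ρ : ℕ → ℕ,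
            (Crest.WordRAM.run P (c₀ * Nat.clog 2 (n + 2)) ρ
              (((adjMatrixCode G ++ adjMatrixCode H).map fun b => if b then 1 else 0))
              (T n)).halted = true ∧
            ((Crest.WordRAM.run P (c₀ * Nat.clog 2 (n + 2)) ρ
              (((adjMatrixCode G ++ adjMatrixCode H).map fun b => if b then 1 else 0))
              (T n)).output = [1] ↔ E k G H)) →
        ∃ n₀ : ℕ, ∀ n ≥ n₀, (n : ℝ) ^ (c' / (2 * q₀) * k) ≤ T n := by
  obtain ⟨R, r, hR⟩ := expandProg (PT_ramF hf)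
  obtain ⟨A, B, hr⟩ := poly_le r
  obtain ⟨k₂, hk₂⟩ := exists_nat_ge (((B + 2 * q₀ : ℕ) + 1 : ℝ) / (c' / 2))
  refine ⟨max k₁ k₂, fun k hk c₀ P T hPT => ?_⟩
  obtain ⟨S, C, hS⟩ := hRam P
  obtain ⟨C₁, hC₁⟩ := dz_length tc (tabOf (R ;; S)) k c₀
  have hmain : ∃ n₀ : ℕ, ∀ n ≥ n₀, (n : ℝ) ^ (c' / 2 * k) ≤ ((T n : ℝ)) ^ q₀ := by
    refine diag_abs hcore ((le_max_left _ _).trans hk) c₀ (R ;; S)
      (fun n => ((T n : ℝ)) ^ q₀) (fun n => by positivity) (B + 2 * q₀)
      (A * C₁ ^ B + C * (2 ^ q₀ * (3 * c₀ + 12) ^ q₀)) ?_ ?_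
    · have h1 : (k₂ : ℝ) ≤ k := by exact_mod_cast (le_max_right _ _).trans hk
      have h2 := hk₂.trans h1
      rw [div_le_iff₀ (by positivity)] at h2
      linarith
    · intro n hn G H hG hH hfe
      obtain ⟨t1, ht1, e1⟩ := hR (dz tc (tabOf (R ;; S)) k c₀ n)
      have hval : val (sndB (dz tc (tabOf (R ;; S)) k c₀ n)) = n := by
        simp [dz, pn]
      rw [hval] at ht1 e1
      have hF : framF f (pairBits (dz tc (tabOf (R ;; S)) k c₀ n) (un n)) =
          pairBits (un (c₀ * Nat.clog 2 (n + 2))) (adjMatrixCode G ++ adjMatrixCode H) := by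
        unfold framF
        rw [hfe]
        simp [dz, pn]
      rw [hF] at e1
      obtain ⟨hh, ho⟩ := hPT n G H hG hH (fun _ => 0)
      obtain ⟨t2, ht2, b, e2, hb⟩ := hS (c₀ * Nat.clog 2 (n + 2))
        (adjMatrixCode G ++ adjMatrixCode H) (T n) hh
      refine ⟨t1 + t2, b, Ev.seq e1 e2, hb.trans ho, ?_⟩
      have hlen := pairCode_length G H
      rw [hlen] at ht2
      have hz := hC₁ n hn
      have h3 : t1 ≤ A * (C₁ * n) ^ B :=
        ht1.trans ((hr _).trans (Nat.mul_le_mul_left _ (Nat.pow_le_pow_left hz _)))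
      have hclog : Nat.clog 2 (n + 2) ≤ n + 2 := by
        rw [Nat.clog_le_iff_le_pow (by norm_num)]
        exact Nat.lt_two_pow_self.le
      have h4 : 2 * ((Crest.Enc.natCode n).length + n * n) + c₀ * Nat.clog 2 (n + 2) + 2
          ≤ (3 * c₀ + 12) * n ^ 2 := by
        have h5 := natCode_length_le n
        have h6 : c₀ * Nat.clog 2 (n + 2) ≤ c₀ * (3 * n ^ 2) :=
          Nat.mul_le_mul_left _ (by nlinarith)
        nlinarith
      have h5 : t2 ≤ C * (2 ^ q₀ * (T n ^ q₀ + ((3 * c₀ + 12) * n ^ 2) ^ q₀)) := by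
        refine ht2.trans (Nat.mul_le_mul_left _ ?_)
        refine le_trans (Nat.pow_le_pow_left ?_ q₀) (add_pow_le (T n)
          ((3 * c₀ + 12) * n ^ 2) q₀)
        omega
      have h6 : n ^ B ≤ n ^ (B + 2 * q₀) := Nat.pow_le_pow_right hn (by omega)
      have h7 : n ^ (2 * q₀) ≤ n ^ (B + 2 * q₀) := Nat.pow_le_pow_right hn (by omega)
      have h8 : t1 + t2 ≤ (A * C₁ ^ B + C * (2 ^ q₀ * (3 * c₀ + 12) ^ q₀)) *
          (n ^ (B + 2 * q₀) + T n ^ q₀) := by
        have a1 : A * (C₁ * n) ^ B ≤ A * C₁ ^ B * n ^ (B + 2 * q₀) := by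
          rw [mul_pow, ← mul_assoc]
          exact Nat.mul_le_mul_left _ h6
        have a2 : ((3 * c₀ + 12) * n ^ 2) ^ q₀ ≤ (3 * c₀ + 12) ^ q₀ * n ^ (B + 2 * q₀) := by
          rw [mul_pow, ← pow_mul]
          exact Nat.mul_le_mul_left _ h7
        have a3 : T n ^ q₀ ≤ (3 * c₀ + 12) ^ q₀ * T n ^ q₀ :=
          Nat.le_mul_of_pos_left _ (by positivity)
        have a4 : t2 ≤ C * (2 ^ q₀ * (3 * c₀ + 12) ^ q₀) * (n ^ (B + 2 * q₀) + T n ^ q₀) := by
          refine h5.trans ?_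
          calc C * (2 ^ q₀ * (T n ^ q₀ + ((3 * c₀ + 12) * n ^ 2) ^ q₀))
              ≤ C * (2 ^ q₀ * ((3 * c₀ + 12) ^ q₀ * T n ^ q₀ +
                  (3 * c₀ + 12) ^ q₀ * n ^ (B + 2 * q₀))) :=
                Nat.mul_le_mul_left _ (Nat.mul_le_mul_left _ (add_le_add a3 a2))
            _ = C * (2 ^ q₀ * (3 * c₀ + 12) ^ q₀) * (n ^ (B + 2 * q₀) + T n ^ q₀) := by ring
        have a5 : t1 ≤ A * C₁ ^ B * (n ^ (B + 2 * q₀) + T n ^ q₀) :=
          h3.trans (a1.trans (Nat.mul_le_mul_left _ (Nat.le_add_right _ _)))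
        calc t1 + t2 ≤ A * C₁ ^ B * (n ^ (B + 2 * q₀) + T n ^ q₀) +
              C * (2 ^ q₀ * (3 * c₀ + 12) ^ q₀) * (n ^ (B + 2 * q₀) + T n ^ q₀) := add_le_add a5 a4
          _ = _ := by ring
      exact_mod_cast h8
  obtain ⟨n₀, hn₀⟩ := hmain
  refine ⟨n₀, fun n hn => ?_⟩
  have h1 := hn₀ n hn
  have hq' : (0 : ℝ) < q₀ := by exact_mod_cast hq
  have h2 : (n : ℝ) ^ (c' / 2 * k) = ((n : ℝ) ^ (c' / (2 * q₀) * k)) ^ q₀ := by
    rw [← Real.rpow_natCast, ← Real.rpow_mul (Nat.cast_nonneg n)]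
    congr 1
    field_simp
  rw [h2] at h1
  exact le_of_pow_le_pow_left₀ (by omega) (Nat.cast_nonneg _) h1

end Crest.Agent.WLD
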