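import Crest.Agent.WLD.Diag

/-!
Row 290 (C): S0435 and S0439 from the interfaces.
-/

set_option autoImplicit false

namespace Crest.Agent.WLD

open Crest.Agent.CHR Crest.Agent.WLX Crest.Agent.WLM Crest.CountHier Crest.WLRefine

/-- What the core has to deliver for a convention `E`. -/
def Core (E : (k : ℕ) → {n : ℕ} → (Fin n → Fin n → Bool) → (Fin n → Fin n → Bool) → Prop) :
    Prop :=
  ∃ (c' : ℝ) (k₁ : ℕ) (tc : Tab → W) (f : W → W), 0 < c' ∧ PolyTime f ∧ CoreProp E tc c' k₁ f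

theorem rpow_mono_exp {n : ℕ} (hn : 1 ≤ n) {c d : ℝ} (h : c ≤ d) (k : ℕ) :
    (n : ℝ) ^ (c * k) ≤ (n : ℝ) ^ (d * k) :=
  Real.rpow_le_rpow_of_exponent_le (by exact_mod_cast hn)
    (mul_le_mul_of_nonneg_right h (Nat.cast_nonneg k))

theorem s0435_of (hTM : TM2Prop) (hJ : Core (fun k _ G H => JEquiv k G H))
    (hS : Core (fun k _ G H => SEquiv k G H)) :
    ∃ c : ℝ, 0 < c ∧ ∃ k₀ : ℕ, ∀ k ≥ k₀,
      (∀ (g : Crest.WLRefine.diamTwoPairCodes → Bool),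
        (∀ x, x.1 ∈ Crest.WLRefine.jointEquivLang k ↔ g x = true) →
        ∀ M : Turing.TM2ComputableInTime (fun x : Crest.WLRefine.diamTwoPairCodes => x.1)
            Computability.encodeBool g,
          ∃ n₀ : ℕ, ∀ n ≥ n₀,
            (n : ℝ) ^ (c * k) ≤ M.time (2 * ((Crest.Enc.natCode n).length + n * n))) ∧
      (∀ (g : Crest.WLRefine.diamTwoPairCodes → Bool),
        (∀ x, x.1 ∈ Crest.WLRefine.sepEquivLang k ↔ g x = true) →
        ∀ M : Turing.TM2ComputableInTime (fun x : Crest.WLRefine.diamTwoPairCodes => x.1)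
            Computability.encodeBool g,
          ∃ n₀ : ℕ, ∀ n ≥ n₀,
            (n : ℝ) ^ (c * k) ≤ M.time (2 * ((Crest.Enc.natCode n).length + n * n))) := by
  obtain ⟨cJ, kJ, tJ, fJ, hcJ, hfJ, hCJ⟩ := hJ
  obtain ⟨cS, kS, tS, fS, hcS, hfS, hCS⟩ := hS
  obtain ⟨k1, hk1⟩ := diag_tm hTM hcJ hfJ hCJ jointEquivLang
    (fun k n G H hG hH => pairCode_mem_joint G H hG hH)
  obtain ⟨k2, hk2⟩ := diag_tm hTM hcS hfS hCS sepEquivLang
    (fun k n G H hG hH => pairCode_mem_sep G H hG hH)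
  refine ⟨min (cJ / 2) (cS / 2), lt_min (by positivity) (by positivity), max k1 k2,
    fun k hk => ⟨fun g hg M => ?_, fun g hg M => ?_⟩⟩
  · obtain ⟨n₀, hn₀⟩ := hk1 k ((le_max_left _ _).trans hk) g hg M
    exact ⟨max n₀ 1, fun n hn => (rpow_mono_exp ((le_max_right _ _).trans hn)
      (min_le_left _ _) k).trans (hn₀ n ((le_max_left _ _).trans hn))⟩
  · obtain ⟨n₀, hn₀⟩ := hk2 k ((le_max_right _ _).trans hk) g hg M
    exact ⟨max n₀ 1, fun n hn => (rpow_mono_exp ((le_max_right _ _).trans hn)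
      (min_le_right _ _) k).trans (hn₀ n ((le_max_left _ _).trans hn))⟩

theorem s0439_of {q₀ : ℕ} (hq : 0 < q₀) (hRam : RamProp q₀)
    (hJ : Core (fun k _ G H => JEquiv k G H)) (hS : Core (fun k _ G H => SEquiv k G H)) :
    ∃ c : ℝ, 0 < c ∧ ∃ k₀ : ℕ, ∀ k ≥ k₀, ∀ c₀ : ℕ,
      (∀ (P : Crest.WordRAM.Program) (T : ℕ → ℕ),
        (∀ (n : ℕ) (G H : Fin n → Fin n → Bool), Crest.WLRefine.SimpleConnDiamTwo G →
          Crest.WLRefine.SimpleConnDiamTwo H → ∀ ρ : ℕ → ℕ,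
            (Crest.WordRAM.run P (c₀ * Nat.clog 2 (n + 2)) ρ (((Crest.WLRefine.adjMatrixCode G ++ Crest.WLRefine.adjMatrixCode H).map fun b => if b then 1 else 0)) (T n)).halted = true ∧
            ((Crest.WordRAM.run P (c₀ * Nat.clog 2 (n + 2)) ρ (((Crest.WLRefine.adjMatrixCode G ++ Crest.WLRefine.adjMatrixCode H).map fun b => if b then 1 else 0)) (T n)).output = [1] ↔ Crest.WLRefine.JEquiv k G H)) →
        ∃ n₀ : ℕ, ∀ n ≥ n₀, (n : ℝ) ^ (c * k) ≤ T n) ∧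
      (∀ (P : Crest.WordRAM.Program) (T : ℕ → ℕ),
        (∀ (n : ℕ) (G H : Fin n → Fin n → Bool), Crest.WLRefine.SimpleConnDiamTwo G →
          Crest.WLRefine.SimpleConnDiamTwo H → ∀ ρ : ℕ → ℕ,
            (Crest.WordRAM.run P (c₀ * Nat.clog 2 (n + 2)) ρ (((Crest.WLRefine.adjMatrixCode G ++ Crest.WLRefine.adjMatrixCode H).map fun b => if b then 1 else 0)) (T n)).halted = true ∧
            ((Crest.WordRAM.run P (c₀ * Nat.clog 2 (n + 2)) ρ (((Crest.WLRefine.adjMatrixCode G ++ Crest.WLRefine.adjMatrixCode H).map fun b => if b then 1 else 0)) (T n)).output = [1] ↔ Crest.WLRefine.SEquiv k G H)) →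
        ∃ n₀ : ℕ, ∀ n ≥ n₀, (n : ℝ) ^ (c * k) ≤ T n) := by
  obtain ⟨cJ, kJ, tJ, fJ, hcJ, hfJ, hCJ⟩ := hJ
  obtain ⟨cS, kS, tS, fS, hcS, hfS, hCS⟩ := hS
  obtain ⟨k1, hk1⟩ := diag_ram hq hRam hcJ hfJ hCJ
  obtain ⟨k2, hk2⟩ := diag_ram hq hRam hcS hfS hCS
  have hq' : (0 : ℝ) < q₀ := by exact_mod_cast hq
  refine ⟨min (cJ / (2 * q₀)) (cS / (2 * q₀)), lt_min (by positivity) (by positivity),
    max k1 k2, fun k hk c₀ => ⟨fun P T h => ?_, fun P T h => ?_⟩⟩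
  · obtain ⟨n₀, hn₀⟩ := hk1 k ((le_max_left _ _).trans hk) c₀ P T h
    exact ⟨max n₀ 1, fun n hn => (rpow_mono_exp ((le_max_right _ _).trans hn)
      (min_le_left _ _) k).trans (hn₀ n ((le_max_left _ _).trans hn))⟩
  · obtain ⟨n₀, hn₀⟩ := hk2 k ((le_max_right _ _).trans hk) c₀ P T h
    exact ⟨max n₀ 1, fun n hn => (rpow_mono_exp ((le_max_right _ _).trans hn)
      (min_le_right _ _) k).trans (hn₀ n ((le_max_left _ _).trans hn))⟩

end Crest.Agent.WLD
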