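import Crest.Agent.WLX.UNTab

/-!
Row 290 (C): iteration with an explicit size bound, and the program `z ↦ f (pairBits z (1^n))`,
`n = val (sndB z)`, in time polynomial in `|z| + n`.
-/

set_option autoImplicit false

namespace Crest.Agent.WLD

open Crest.Agent.CHR Crest.Agent.WLX Crest.CountHier

/-- Iteration of a polynomial-time step with an explicit size bound `M`. -/
theorem iterM {s i c : W → W} (hs : PolyTime s) (hi : PolyTime i) (hc : PolyTime c) :
    ∃ (R : Prog) (r : Polynomial ℕ), ∀ (w : W) (M : ℕ),
      (∀ k ≤ (c w).length, (s^[k] (i w)).length ≤ M) →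
        ∃ t ≤ r.eval (w.length + M), Ev R (ini w) t (ini (s^[(c w).length] (i w))) := by
  have hcb := hc.pb
  obtain ⟨C, U, hU, hC⟩ := PolyTime_iff.1 hc
  obtain ⟨I, V, hV, hI⟩ := PolyTime_iff.1 hi
  obtain ⟨P, p, hP⟩ := hs
  set B := max C.maxReg (max I.maxReg P.maxReg) with hB
  have hloop : ∀ (l : W) (x : W) (M : ℕ), (∀ k ≤ l.length, (s^[k] x).length ≤ M) →
      ∃ t ≤ l.length * (p.eval M + 2) + 1,
        Ev (.loop (B + 1) (.pop (B + 1) ;; P)) (st B x l [] []) t
          (st B (s^[l.length] x) [] [] []) := by
    intro l
    induction l with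
    | nil =>
      intro x M _
      exact ⟨1, by simp, Ev.loop_done (by simp)⟩
    | cons b l ih =>
      intro x M hM
      obtain ⟨t1, ht1, h1⟩ := hP x
      have hx : x.length ≤ M := by simpa using hM 0 (by simp)
      have ht1' : t1 ≤ p.eval M := ht1.trans (polyEval_mono p hx)
      obtain ⟨t2, ht2, h2⟩ := ih (s x) M (fun k hk => by
        have := hM (k + 1) (by simpa using hk)
        simpa [Function.iterate_succ_apply] using this)
      have e1 : Ev (.pop (B + 1)) (st B x (b :: l) [] []) 1 (st B x l [] []) := by
        simpa using Ev.pop (B + 1) (st B x (b :: l) [] [])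
      have e2 := h1.frame_st (le_trans (le_max_right _ _) (le_max_right _ _) : P.maxReg ≤ B)
        l [] []
      refine ⟨(1 + t1) + t2 + 1, ?_, ?_⟩
      · have : (b :: l).length * (p.eval M + 2) = l.length * (p.eval M + 2) + (p.eval M + 2) := by
          rw [List.length_cons]; ring
        omega
      · have h3 := Ev.loop_step (r := B + 1) (by simp) (Ev.seq e1 e2) h2
        simpa [Function.iterate_succ_apply] using h3
  obtain ⟨qc, hqc⟩ := hcb
  obtain ⟨qU, hqU⟩ := hU
  obtain ⟨qV, hqV⟩ := hV
  refine ⟨cpy B ;; C ;; mv 0 (B + 1) ;; mv (B + 2) 0 ;; I ;; .loop (B + 1) (.pop (B + 1) ;; P),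
    (9 * Polynomial.X + 2) + (qU + ((4 * qc + 1) + ((4 * Polynomial.X + 1) + (qV +
      (qc * (p + 2) + 1))))), fun w M hM => ?_⟩
  obtain ⟨t, ht, hL⟩ := hloop (c w).reverse (i w) M (fun k hk => hM k (by simpa using hk))
  simp only [List.length_reverse] at ht hL
  refine ⟨(9 * w.length + 2) + (U w + ((4 * (c w).length + 1) + ((4 * w.length + 1) +
      (V w + t)))), ?_, ?_⟩
  · have a1 : (c w).length ≤ qc.eval (w.length + M) :=
      (hqc w).trans (polyEval_mono _ (Nat.le_add_right _ _))
    have a2 : U w ≤ qU.eval (w.length + M) :=
      (hqU w).trans (polyEval_mono _ (Nat.le_add_right _ _))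
    have a3 : V w ≤ qV.eval (w.length + M) :=
      (hqV w).trans (polyEval_mono _ (Nat.le_add_right _ _))
    have a4 : p.eval M ≤ p.eval (w.length + M) := polyEval_mono _ (Nat.le_add_left _ _)
    have a5 : t ≤ qc.eval (w.length + M) * (p.eval (w.length + M) + 2) + 1 :=
      ht.trans (Nat.add_le_add_right (Nat.mul_le_mul a1 (by omega)) 1)
    simp only [Polynomial.eval_add, Polynomial.eval_mul, Polynomial.eval_ofNat,
      Polynomial.eval_X, Polynomial.eval_one]
    omega
  · rw [← st_ini B w, ← st_ini B (s^[(c w).length] (i w))]
    have e1 := ev_cpy B w []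
    have e2 := (hC w).frame_st (le_max_left _ _ : C.maxReg ≤ B) [] w.reverse []
    have e3 := ev_mv01 B (c w) [] w.reverse []
    have e4 := ev_mv20 B [] (c w).reverse w.reverse []
    have e5 := (hI w).frame_st (le_trans (le_max_left _ _) (le_max_right _ _) : I.maxReg ≤ B)
      (c w).reverse [] []
    simp only [List.append_nil, List.reverse_reverse, List.length_reverse] at e1 e2 e3 e4 e5
    exact Ev.seq e1 (Ev.seq e2 (Ev.seq e3 (Ev.seq e4 (Ev.seq e5 hL))))

/-- doubling step on `pairBits z (pairBits rem (1^a))` -/
noncomputable def dstep (w : W) : W :=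
  pairBits (fstB w) (pairBits (fstB (sndB w)).tail
    (if (fstB (sndB w)).head? = some true then
      (sndB (sndB w) ++ sndB (sndB w)) ++ [true] else sndB (sndB w) ++ sndB (sndB w)))

theorem PT_dstep : PolyTime dstep := by
  have hr : PolyTime (fun w : W => fstB (sndB w)) := PT.comp PT.fst PT.snd
  have ha : PolyTime (fun w : W => sndB (sndB w)) := PT.comp PT.snd PT.snd
  have haa : PolyTime (fun w : W => sndB (sndB w) ++ sndB (sndB w)) := PT.append ha ha
  have haa1 : PolyTime (fun w : W => (sndB (sndB w) ++ sndB (sndB w)) ++ [true]) :=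
    PT.append haa (PT.const [true])
  exact PT.pair PT.fst (PT.pair (PT.comp PT.tail hr) (PT.ite hr haa1 haa))

/-- value, most significant bit first, with accumulator -/
def hv : W → ℕ → ℕ
  | [], a => a
  | b :: l, a => hv l (2 * a + b.toNat)

theorem hv_ge (l : W) (a : ℕ) : a ≤ hv l a := by
  induction l generalizing a with
  | nil => exact le_rfl
  | cons b l ih => exact le_trans (by omega) (ih _)

theorem hv_eq (l : W) (a : ℕ) : hv l a = val l.reverse + 2 ^ l.length * a := by
  have val_append : ∀ (x y : W), val (x ++ y) = val x + 2 ^ x.length * val y := by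
    intro x y
    induction x with
    | nil => simp [val]
    | cons b x ih => simp only [List.cons_append, val, ih, List.length_cons]; ring
  induction l generalizing a with
  | nil => simp [hv, val]
  | cons b l ih =>
    rw [hv, ih, List.reverse_cons, val_append]
    simp only [List.length_reverse, val, List.length_cons, Nat.mul_zero, Nat.add_zero]
    ring

theorem dstep_iter (z : W) (l : W) (a k : ℕ) (hk : k ≤ l.length) :
    dstep^[k] (pairBits z (pairBits l (un a))) =
      pairBits z (pairBits (l.drop k) (un (hv (l.take k) a))) := by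
  induction k generalizing l a with
  | zero => simp [hv]
  | succ k ih =>
    rw [Function.iterate_succ_apply]
    cases l with
    | nil => simp at hk
    | cons b l =>
      have h1 : dstep (pairBits z (pairBits (b :: l) (un a))) =
          pairBits z (pairBits l (un (2 * a + b.toNat))) := by
        unfold dstep
        simp only [fstB_pairBits, sndB_pairBits, List.tail_cons, List.head?_cons]
        congr 2
        cases b
        · simp [un, two_mul]
        · simp [un, two_mul, ← List.replicate_succ', ]
      rw [h1, ih l _ (by simpa using hk)]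
      simp [hv]

/-- `z ↦ pairBits z (1^n)` with `n = val (sndB z)` followed by a polynomial-time function. -/
theorem expandProg {f : W → W} (hf : PolyTime f) :
    ∃ (R : Prog) (r : Polynomial ℕ), ∀ z : W,
      ∃ t ≤ r.eval (z.length + val (sndB z)),
        Ev R (ini z) t (ini (f (pairBits z (un (val (sndB z)))))) := by
  have hi : PolyTime (fun z : W => pairBits z (pairBits (sndB z).reverse [])) :=
    PT.pair PT.id (PT.pair (PT.reverse PT.snd) (PT.const []))
  obtain ⟨R, r, hR⟩ := iterM PT_dstep hi PT.snd
  have hg : PolyTime (fun w : W => f (pairBits (fstB w) (sndB (sndB w)))) :=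
    PT.comp hf (PT.pair PT.fst (PT.comp PT.snd PT.snd))
  obtain ⟨P, p, hP⟩ := hg
  have hlenP : ∀ x y : W, (pairBits x y).length = 2 * x.length + 1 + y.length :=
    fun x y => by
      induction x with
      | nil => simp [pairBits]; omega
      | cons b x ih =>
        have : pairBits (b :: x) y = true :: b :: pairBits x y := rfl
        rw [this]; simp only [List.length_cons]; omega
  refine ⟨R ;; P, r.comp (10 * Polynomial.X + 10) + p.comp (10 * Polynomial.X + 10),
    fun z => ?_⟩
  set n := val (sndB z) with hn
  have hs : (sndB z).length ≤ z.length := by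
    have key : ∀ (l : W), (sndB l).length ≤ l.length := by
      intro l
      induction l using unpairB.induct with
      | case1 b l ih =>
        have : sndB (true :: b :: l) = sndB l := rfl
        rw [this]; simp only [List.length_cons]; omega
      | case2 l =>
        have : sndB (false :: l) = l := rfl
        rw [this]; simp
      | case3 l h1 h2 =>
        have : sndB l = [] := by
          unfold sndB
          rw [unpairB]
          · exact h1
          · exact h2
        rw [this]; simp
    exact key z
  have hle : ∀ k, k ≤ (sndB z).length → hv ((sndB z).reverse.take k) 0 ≤ n := by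
    intro k hk
    have h1 : hv (sndB z).reverse 0 = n := by rw [hv_eq]; simp [hn]
    have h2 : ∀ (l m : W) (a : ℕ), hv (l ++ m) a = hv m (hv l a) := by
      intro l m a
      induction l generalizing a with
      | nil => rfl
      | cons b l ih => exact ih _
    rw [← h1]
    conv_rhs => rw [← List.take_append_drop k (sndB z).reverse, h2]
    exact hv_ge _ _
  have hM : ∀ k ≤ (sndB z).length,
      (dstep^[k] (pairBits z (pairBits (sndB z).reverse []))).length
        ≤ 4 * z.length + 2 + n := by
    intro k hk
    have h0 : ([] : W) = un 0 := rfl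
    rw [h0, dstep_iter z (sndB z).reverse 0 k (by simpa using hk), hlenP, hlenP]
    have := hle k hk
    simp only [un_length, List.length_drop, List.length_reverse]
    omega
  obtain ⟨t1, ht1, h1⟩ := hR z _ hM
  have h0 : ([] : W) = un 0 := rfl
  rw [h0, dstep_iter z (sndB z).reverse 0 _ (by simp)] at h1
  have h2 : hv ((sndB z).reverse.take (sndB z).length) 0 = n := by
    have : (sndB z).reverse.take (sndB z).length = (sndB z).reverse := by
      rw [List.take_of_length_le]; simp
    rw [this, hv_eq]; simp [hn]
  rw [h2] at h1
  obtain ⟨t2, ht2, h3⟩ := hP (pairBits z (pairBits ((sndB z).reverse.drop (sndB z).length)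
    (un n)))
  simp only [fstB_pairBits, sndB_pairBits] at h3
  refine ⟨t1 + t2, ?_, Ev.seq h1 h3⟩
  rw [Polynomial.eval_add, Polynomial.eval_comp, Polynomial.eval_comp]
  simp only [Polynomial.eval_add, Polynomial.eval_mul, Polynomial.eval_ofNat,
    Polynomial.eval_X]
  refine add_le_add (ht1.trans (polyEval_mono _ (by omega))) (ht2.trans (polyEval_mono _ ?_))
  rw [hlenP, hlenP]
  simp only [un_length, List.length_drop, List.length_reverse]
  omega

end Crest.Agent.WLD
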